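import Vale.Agent.P075.Defs

/-!
# P075 : basic facts about the positive semidefinite square root
-/

namespace P075

open Matrix Finset

namespace BasicAux

variable {m n : Type} [Fintype m] [Fintype n]

theorem conj {A : Matrix n n ℝ} (hA : A.PosSemidef)
    (B : Matrix n m ℝ) : (Bᵀ * A * B).PosSemidef := by
  have := hA.conjTranspose_mul_mul_same B
  rwa [conjTranspose_eq_transpose_of_trivial] at this

omit [Fintype n] in
theorem sym {A : Matrix n n ℝ} (hA : A.PosSemidef) : Aᵀ = A := by
  have := hA.isHermitian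
  rwa [IsHermitian, conjTranspose_eq_transpose_of_trivial] at this

theorem sq {A : Matrix n n ℝ} (hA : A.PosSemidef) : (A * A).PosSemidef := by
  have := posSemidef_conjTranspose_mul_self A
  rwa [conjTranspose_eq_transpose_of_trivial, sym hA] at this

open scoped MatrixOrder in
theorem exists_root [DecidableEq n] {X : Matrix n n ℝ} (hX : X.PosSemidef) :
    ∃ s : Matrix n n ℝ, s.PosSemidef ∧ s * s = X := by
  refine ⟨CFC.sqrt X, ?_, ?_⟩
  · exact Matrix.nonneg_iff_posSemidef.mp (CFC.sqrt_nonneg X)
  · exact CFC.sqrt_mul_sqrt_self X (Matrix.nonneg_iff_posSemidef.mpr hX)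

end BasicAux

variable {m n : Type} [Fintype m] [DecidableEq m] [Fintype n] [DecidableEq n]

theorem rt_posSemidef (X : Matrix n n ℝ) : (rt X).PosSemidef := by
  unfold rt
  split_ifs with h
  · exact h.choose_spec.1
  · exact PosSemidef.zero

theorem rt_mul_rt {X : Matrix n n ℝ} (hX : X.PosSemidef) : rt X * rt X = X := by
  have h := BasicAux.exists_root hX
  unfold rt
  rw [dif_pos h]
  exact h.choose_spec.2

theorem trace_mul_nonneg {X Y : Matrix n n ℝ} (hX : X.PosSemidef) (hY : Y.PosSemidef) :
    0 ≤ (X * Y).trace := by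
  have h := (BasicAux.conj hX (rt Y)).trace_nonneg
  rw [BasicAux.sym (rt_posSemidef Y), Matrix.mul_assoc, trace_mul_comm, Matrix.mul_assoc,
    rt_mul_rt hY] at h
  exact h

theorem trace_mul_le {X Y Z : Matrix n n ℝ} (hX : X.PosSemidef) (hYZ : (Z - Y).PosSemidef) :
    (X * Y).trace ≤ (X * Z).trace := by
  have h := trace_mul_nonneg hX hYZ
  rw [Matrix.mul_sub, trace_sub] at h
  linarith

/-- `2 s³ + z³ - 3 s² z` has the trace of `(s - z) (2 s + z) (s - z)` -/
theorem young {s z : Matrix n n ℝ} (hs : s.PosSemidef) (hz : z.PosSemidef) :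
    3 * (s * s * z).trace ≤ 2 * (s * s * s).trace + (z * z * z).trace := by
  have h₀ : (s + s + z).PosSemidef := (hs.add hs).add hz
  have h := (BasicAux.conj h₀ (s - z)).trace_nonneg
  have e : (s - z)ᵀ * (s + s + z) * (s - z) = s * s * s + s * s * s + z * z * z
      - s * s * z - s * s * z + s * z * s - s * z * z - z * s * s - z * s * s
      + z * s * z + z * s * z - z * z * s := by
    rw [transpose_sub, BasicAux.sym hs, BasicAux.sym hz]
    noncomm_ring
  rw [e] at h
  simp only [trace_add, trace_sub] at h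
  have t₁ : (s * z * s).trace = (s * s * z).trace := by
    rw [trace_mul_comm, ← Matrix.mul_assoc]
  have t₂ : (z * s * s).trace = (s * s * z).trace := by
    rw [Matrix.mul_assoc, trace_mul_comm]
  have t₃ : (z * s * z).trace = (s * z * z).trace := by
    rw [Matrix.mul_assoc, trace_mul_comm]
  have t₄ : (z * z * s).trace = (s * z * z).trace := by
    rw [trace_mul_comm, ← Matrix.mul_assoc]
  linarith

theorem phi_nonneg (X : Matrix n n ℝ) : 0 ≤ phi X :=
  trace_mul_nonneg (BasicAux.sq (rt_posSemidef X)) (rt_posSemidef X)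

theorem phi_sq {s : Matrix n n ℝ} (hs : s.PosSemidef) : phi (s * s) = (s * s * s).trace := by
  unfold phi
  have ht := rt_posSemidef (s * s)
  have he := rt_mul_rt (BasicAux.sq hs)
  have h₁ := young hs ht
  have h₂ := young ht hs
  rw [he] at h₁ h₂ ⊢
  have t₁ : (s * s * rt (s * s)).trace = (s * s * rt (s * s)).trace := rfl
  linarith

theorem phi_mono {X Y : Matrix n n ℝ} (hX : X.PosSemidef) (hXY : (Y - X).PosSemidef) :
    phi X ≤ phi Y := by
  have hY : Y.PosSemidef := by
    have := hXY.add hX
    rwa [sub_add_cancel] at this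
  unfold phi
  have h₁ := young (rt_posSemidef Y) (rt_posSemidef X)
  have h₂ := trace_mul_le (rt_posSemidef X) hXY
  rw [trace_mul_comm (rt X) X, trace_mul_comm (rt X) Y] at h₂
  rw [rt_mul_rt hX, rt_mul_rt hY] at h₁
  rw [rt_mul_rt hX, rt_mul_rt hY]
  linarith

theorem phi_smul {X : Matrix n n ℝ} (hX : X.PosSemidef) {c : ℝ} (hc : 0 ≤ c) :
    phi ((c * c) • X) = c ^ 3 * phi X := by
  have e : (c * c) • X = (c • rt X) * (c • rt X) := by
    rw [Matrix.smul_mul, Matrix.mul_smul, smul_smul, rt_mul_rt hX]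
  rw [e, phi_sq ((rt_posSemidef X).smul hc)]
  simp only [Matrix.smul_mul, Matrix.mul_smul, trace_smul, smul_eq_mul, phi]
  ring

end P075
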