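import Vale.Agent.P075.Basic

/-!
# P075 : module D, block matrices
-/

namespace P075

open Matrix Finset

variable {m n : Type} [Fintype m] [DecidableEq m] [Fintype n] [DecidableEq n]

namespace BlockAux

omit [DecidableEq n] in
theorem trace_blk (X Y Z W : Matrix n n ℝ) : (fromBlocks X Y Z W).trace = X.trace + W.trace := by
  simp only [trace, diag_apply, Fintype.sum_sum_type, fromBlocks_apply₁₁, fromBlocks_apply₂₂]

theorem diagz {p : Matrix n n ℝ} (hp : p.IsHermitian) :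
    ∃ (U : Matrix n n ℝ) (d : n → ℝ), Uᵀ * U = 1 ∧ U * Uᵀ = 1 ∧
      p = U * diagonal d * Uᵀ := by
  refine ⟨hp.eigenvectorUnitary, hp.eigenvalues, ?_, ?_, ?_⟩
  · have := Unitary.coe_star_mul_self hp.eigenvectorUnitary
    simpa [star_eq_conjTranspose, conjTranspose_eq_transpose_of_trivial] using this
  · have := Unitary.coe_mul_star_self hp.eigenvectorUnitary
    simpa [star_eq_conjTranspose, conjTranspose_eq_transpose_of_trivial] using this
  · have h := hp.spectral_theorem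
    rw [Unitary.conjStarAlgAut_apply] at h
    simpa [star_eq_conjTranspose, conjTranspose_eq_transpose_of_trivial,
      Function.comp_def] using h

theorem diag_psd {d : n → ℝ} (hd : ∀ i, 0 ≤ d i) (U : Matrix n n ℝ) :
    (U * diagonal d * Uᵀ).PosSemidef := by
  have h := (PosSemidef.diagonal (n := n) (d := d) hd)
  have := BasicAux.conj h Uᵀ
  rwa [transpose_transpose] at this

theorem blk {X Y : Matrix n n ℝ} (hX : X.PosSemidef) (hY : Y.PosSemidef) :
    (fromBlocks X 0 0 Y).PosSemidef := by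
  have h := posSemidef_conjTranspose_mul_self (fromBlocks (rt X) 0 0 (rt Y))
  rw [conjTranspose_eq_transpose_of_trivial, fromBlocks_transpose, fromBlocks_multiply] at h
  simpa [BasicAux.sym (rt_posSemidef X), BasicAux.sym (rt_posSemidef Y), rt_mul_rt hX,
    rt_mul_rt hY] using h

end BlockAux

theorem sq_le {A X : Matrix n n ℝ} (hA : A.IsHermitian) (hX : X.PosSemidef)
    (h : (X * X - A * A).PosSemidef) : (X - A).PosSemidef := by
  obtain ⟨U, d, hU, hU', hD⟩ := BlockAux.diagz (hX.isHermitian.sub hA)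
  have hA' : A = X - U * diagonal d * Uᵀ := by rw [← hD]; abel
  have h1 := BasicAux.conj h U
  have h2 := BasicAux.conj hX U
  have e : Uᵀ * (X * X - A * A) * U = (Uᵀ * X * U) * diagonal d + diagonal d * (Uᵀ * X * U)
      - diagonal d * diagonal d := by
    have e1 : X * X - A * A = X * (U * diagonal d * Uᵀ) + (U * diagonal d * Uᵀ) * X -
        (U * diagonal d * Uᵀ) * (U * diagonal d * Uᵀ) := by
      rw [hA']
      simp only [Matrix.sub_mul, Matrix.mul_sub]
      abel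
    have e2 : (U * diagonal d * Uᵀ) * (U * diagonal d * Uᵀ) =
        U * (diagonal d * diagonal d) * Uᵀ := by
      calc (U * diagonal d * Uᵀ) * (U * diagonal d * Uᵀ)
          = U * diagonal d * (Uᵀ * U) * diagonal d * Uᵀ := by simp only [Matrix.mul_assoc]
        _ = _ := by rw [hU]; simp only [Matrix.mul_assoc, Matrix.one_mul]
    rw [e1, e2]
    calc Uᵀ * (X * (U * diagonal d * Uᵀ) + U * diagonal d * Uᵀ * X -
          U * (diagonal d * diagonal d) * Uᵀ) * U
        = Uᵀ * X * U * diagonal d * (Uᵀ * U) + (Uᵀ * U) * diagonal d * (Uᵀ * X * U) -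
          (Uᵀ * U) * (diagonal d * diagonal d) * (Uᵀ * U) := by
          simp only [Matrix.mul_sub, Matrix.sub_mul, Matrix.mul_add, Matrix.add_mul,
            Matrix.mul_assoc]
      _ = _ := by rw [hU]; simp only [Matrix.mul_one, Matrix.one_mul]
  have hd : ∀ i, 0 ≤ d i := by
    intro i
    have a1 := h1.diag_nonneg (i := i)
    have a2 := h2.diag_nonneg (i := i)
    rw [e] at a1
    simp only [Matrix.sub_apply, Matrix.add_apply, mul_diagonal, diagonal_mul, diagonal_apply_eq] at a1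
    by_contra hneg
    push Not at hneg
    nlinarith [mul_nonneg a2 (neg_nonneg.2 hneg.le), mul_pos_of_neg_of_neg hneg hneg]
  rw [hD]
  exact BlockAux.diag_psd hd U

theorem base_trace {A B C x₀ x₁ : Matrix n n ℝ} (hx₀ : x₀.PosSemidef) (hx₁ : x₁.PosSemidef)
    (h₁ : (x₁ * x₁ - Aᵀ * A).PosSemidef) (h₀ : (x₀ * x₀ - A * Aᵀ).PosSemidef) :
    2 * |(A * B * C).trace| ≤ (x₁ * (B * Bᵀ)).trace + (x₀ * (Cᵀ * C)).trace := by
  have hX := BlockAux.blk hx₀ hx₁
  have hH : (fromBlocks 0 A Aᵀ 0 : Matrix (n ⊕ n) (n ⊕ n) ℝ).IsHermitian := by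
    rw [IsHermitian, conjTranspose_eq_transpose_of_trivial, fromBlocks_transpose]
    simp
  have hsq : ((fromBlocks x₀ 0 0 x₁ : Matrix (n ⊕ n) (n ⊕ n) ℝ) * fromBlocks x₀ 0 0 x₁ -
      (fromBlocks 0 A Aᵀ 0 : Matrix (n ⊕ n) (n ⊕ n) ℝ) * fromBlocks 0 A Aᵀ 0).PosSemidef := by
    have := BlockAux.blk h₀ h₁
    rw [fromBlocks_multiply, fromBlocks_multiply]
    have e : fromBlocks (x₀ * x₀ + 0 * 0) (x₀ * 0 + 0 * x₁) (0 * x₀ + x₁ * 0)
        (0 * 0 + x₁ * x₁) - fromBlocks (0 * 0 + A * Aᵀ) (0 * A + A * 0) (Aᵀ * 0 + 0 * Aᵀ)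
        (Aᵀ * A + 0 * 0) = fromBlocks (x₀ * x₀ - A * Aᵀ) 0 0 (x₁ * x₁ - Aᵀ * A) := by
      rw [sub_eq_add_neg, fromBlocks_neg, fromBlocks_add]
      simp [sub_eq_add_neg]
    rw [e]
    exact this
  have hm := sq_le hH hX hsq
  have hp : ((fromBlocks x₀ 0 0 x₁ : Matrix (n ⊕ n) (n ⊕ n) ℝ) -
      -(fromBlocks 0 A Aᵀ 0)).PosSemidef := by
    refine sq_le hH.neg hX ?_
    rw [neg_mul_neg]
    exact hsq
  have c1 := (BasicAux.conj hm (fromBlocks Cᵀ 0 B 0 : Matrix (n ⊕ n) (n ⊕ n) ℝ)).trace_nonneg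
  have c2 := (BasicAux.conj hp (fromBlocks Cᵀ 0 B 0 : Matrix (n ⊕ n) (n ⊕ n) ℝ)).trace_nonneg
  have k1 : (fromBlocks Cᵀ 0 B 0 : Matrix (n ⊕ n) (n ⊕ n) ℝ)ᵀ * fromBlocks x₀ 0 0 x₁ *
      (fromBlocks Cᵀ 0 B 0 : Matrix (n ⊕ n) (n ⊕ n) ℝ) =
      fromBlocks (C * x₀ * Cᵀ + Bᵀ * x₁ * B) 0 0 0 := by
    rw [fromBlocks_transpose, fromBlocks_multiply, fromBlocks_multiply]
    simp
  have k2 : (fromBlocks Cᵀ 0 B 0 : Matrix (n ⊕ n) (n ⊕ n) ℝ)ᵀ * fromBlocks 0 A Aᵀ 0 *
      (fromBlocks Cᵀ 0 B 0 : Matrix (n ⊕ n) (n ⊕ n) ℝ) =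
      fromBlocks (C * A * B + Bᵀ * Aᵀ * Cᵀ) 0 0 0 := by
    rw [fromBlocks_transpose, fromBlocks_multiply, fromBlocks_multiply]
    simp [add_comm]
  rw [Matrix.mul_sub, Matrix.sub_mul, k1, k2, trace_sub, BlockAux.trace_blk, BlockAux.trace_blk,
    trace_zero, trace_add, trace_add] at c1
  rw [Matrix.mul_sub, Matrix.sub_mul, Matrix.mul_neg, Matrix.neg_mul, k1, k2, trace_sub,
    trace_neg, BlockAux.trace_blk, BlockAux.trace_blk, trace_zero, trace_add, trace_add] at c2
  have t1 : (C * A * B).trace = (A * B * C).trace := by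
    rw [Matrix.mul_assoc, trace_mul_comm]
  have t2 : (Bᵀ * Aᵀ * Cᵀ).trace = (A * B * C).trace := by
    have : Bᵀ * Aᵀ * Cᵀ = (C * A * B)ᵀ := by
      simp only [transpose_mul, Matrix.mul_assoc]
    rw [this, trace_transpose, t1]
  have t3 : (C * x₀ * Cᵀ).trace = (x₀ * (Cᵀ * C)).trace := by
    rw [Matrix.mul_assoc, trace_mul_comm, Matrix.mul_assoc]
  have t4 : (Bᵀ * x₁ * B).trace = (x₁ * (B * Bᵀ)).trace := by
    rw [Matrix.mul_assoc, trace_mul_comm, Matrix.mul_assoc]
  rw [t1, t2, t3, t4] at c1 c2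
  have : |(A * B * C).trace| ≤ ((x₁ * (B * Bᵀ)).trace + (x₀ * (Cᵀ * C)).trace) / 2 := by
    rw [abs_le]
    constructor <;> linarith
  linarith

theorem absd {p q : Matrix n n ℝ} (hp : p.PosSemidef) (hq : q.PosSemidef) :
    phi ((p - q) * (p - q)) ≤ ((p + q) * (p - q) * (p - q)).trace := by
  obtain ⟨U, d, hU, hU', hD⟩ := BlockAux.diagz (hp.isHermitian.sub hq.isHermitian)
  have key : ∀ a b : n → ℝ, (U * diagonal a * Uᵀ) * (U * diagonal b * Uᵀ) =
      U * diagonal (fun i => a i * b i) * Uᵀ := by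
    intro a b
    calc (U * diagonal a * Uᵀ) * (U * diagonal b * Uᵀ)
        = U * diagonal a * (Uᵀ * U) * diagonal b * Uᵀ := by simp only [Matrix.mul_assoc]
      _ = U * (diagonal a * diagonal b) * Uᵀ := by
        rw [hU]; simp only [Matrix.mul_assoc, Matrix.one_mul]
      _ = _ := by rw [diagonal_mul_diagonal]
  have hs : (U * diagonal (fun i => |d i|) * Uᵀ).PosSemidef :=
    BlockAux.diag_psd (fun i => abs_nonneg _) U
  have e1 : (p - q) * (p - q) =
      (U * diagonal (fun i => |d i|) * Uᵀ) * (U * diagonal (fun i => |d i|) * Uᵀ) := by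
    rw [hD, key, key]
    simp only [abs_mul_abs_self]
  have hp' := BasicAux.conj hp U
  have hq' := BasicAux.conj hq U
  have hdiag : Uᵀ * p * U - Uᵀ * q * U = diagonal d := by
    have : Uᵀ * p * U - Uᵀ * q * U = Uᵀ * (p - q) * U := by
      simp only [Matrix.mul_sub, Matrix.sub_mul]
    rw [this, hD]
    calc Uᵀ * (U * diagonal d * Uᵀ) * U = (Uᵀ * U) * diagonal d * (Uᵀ * U) := by
          simp only [Matrix.mul_assoc]
      _ = _ := by rw [hU, Matrix.one_mul, Matrix.mul_one]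
  have lhs : phi ((p - q) * (p - q)) = ∑ i, |d i| * |d i| * |d i| := by
    rw [e1, phi_sq hs, key, key, trace_mul_comm, ← Matrix.mul_assoc, hU, Matrix.one_mul,
      trace_diagonal]
  have rhs : ((p + q) * (p - q) * (p - q)).trace =
      ∑ i, (Uᵀ * p * U + Uᵀ * q * U) i i * (d i * d i) := by
    have : ((p + q) * (p - q) * (p - q)) = (p + q) * (U * diagonal (fun i => d i * d i) * Uᵀ) := by
      rw [Matrix.mul_assoc, hD, key]
    rw [this]
    have t : ((p + q) * (U * diagonal (fun i => d i * d i) * Uᵀ)).trace =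
        ((Uᵀ * p * U + Uᵀ * q * U) * diagonal (fun i => d i * d i)).trace := by
      calc ((p + q) * (U * diagonal (fun i => d i * d i) * Uᵀ)).trace
          = (((p + q) * U * diagonal (fun i => d i * d i)) * Uᵀ).trace := by
            simp only [Matrix.mul_assoc]
        _ = (Uᵀ * ((p + q) * U * diagonal (fun i => d i * d i))).trace := by
            rw [trace_mul_comm]
        _ = _ := by
            simp only [Matrix.add_mul, Matrix.mul_add, Matrix.mul_assoc]
    rw [t, trace]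
    refine Finset.sum_congr rfl fun i _ => ?_
    rw [diag_apply, mul_diagonal]
  rw [lhs, rhs]
  refine Finset.sum_le_sum fun i _ => ?_
  have a1 := hp'.diag_nonneg (i := i)
  have a2 := hq'.diag_nonneg (i := i)
  have a3 : (Uᵀ * p * U) i i - (Uᵀ * q * U) i i = d i := by
    rw [← Matrix.sub_apply, hdiag, diagonal_apply_eq]
  rw [Matrix.add_apply]
  have a4 : |d i| ≤ (Uᵀ * p * U) i i + (Uᵀ * q * U) i i := by
    rw [← a3, abs_le]
    constructor <;> linarith
  have a5 : |d i| * |d i| = d i * d i := abs_mul_abs_self _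
  rw [a5, mul_comm]
  exact mul_le_mul_of_nonneg_right a4 (mul_self_nonneg _)

end P075
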