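import Mathlib

/-!
# P075 (dyadic triangular Hilbert transform) : definitions used in the proof
-/

namespace P075

open Matrix Finset

section Mat

variable {m n : Type} [Fintype m] [DecidableEq m] [Fintype n] [DecidableEq n]

open Classical in
/-- the positive semidefinite square root of a positive semidefinite matrix (else `0`) -/
noncomputable def rt (X : Matrix n n ℝ) : Matrix n n ℝ :=
  if h : ∃ s : Matrix n n ℝ, s.PosSemidef ∧ s * s = X then h.choose else 0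

/-- the trace of the power `3/2` of a positive semidefinite matrix -/
noncomputable def phi (X : Matrix n n ℝ) : ℝ := (rt X * rt X * rt X).trace

/-- the block row `[M 0, M 1, N 0, N 1]` -/
def row (M N : Fin 2 → Matrix n n ℝ) : Matrix n ((Fin 2 × n) ⊕ (Fin 2 × n)) ℝ :=
  Matrix.of fun i => Sum.elim (fun c => M c.1 i c.2) (fun c => N c.1 i c.2)

/-- the `2 × 2` block matrix -/
def big (A : Fin 2 → Fin 2 → Matrix n n ℝ) : Matrix (Fin 2 × n) (Fin 2 × n) ℝ :=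
  Matrix.of fun i j => A i.1 j.1 i.2 j.2

/-- the energy at the common vertex of `A` and `B` -/
noncomputable def ve (A B : Matrix n n ℝ) : ℝ := phi (Aᵀ * A + B * Bᵀ)

/-- the potential -/
noncomputable def en (A B C : Matrix n n ℝ) : ℝ := ve A B + ve B C + ve C A

/-- the sign of a bit -/
def sg (a : Fin 2) : ℝ := if a = 0 then 1 else -1

/-- the gain -/
noncomputable def gain (A B C : Fin 2 → Fin 2 → Matrix n n ℝ) : ℝ :=
  ∑ a, ∑ b, ∑ c, sg a * sg b * sg c * (A a b * B b c * C c a).trace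

/-- the two square roots at a vertex, for the families `A` (coming in) and `B` (going out) -/
noncomputable def vp (A B : Fin 2 → Fin 2 → Matrix n n ℝ) (b : Fin 2) :
    Matrix ((Fin 2 × n) ⊕ (Fin 2 × n)) ((Fin 2 × n) ⊕ (Fin 2 × n)) ℝ :=
  rt ((row (B b) fun a => (A a b)ᵀ)ᵀ * row (B b) fun a => (A a b)ᵀ)

/-- the defect at a vertex -/
noncomputable def vd (A B : Fin 2 → Fin 2 → Matrix n n ℝ) : ℝ :=
  ((vp A B 0 + vp A B 1) * (vp A B 0 - vp A B 1) * (vp A B 0 - vp A B 1)).trace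

end Mat

section Tree

/-- the index set of a block of side `2 ^ k` -/
def Ix : ℕ → Type
  | 0 => Unit
  | k + 1 => Fin 2 × Ix k

instance instFintypeIx : ∀ k, Fintype (Ix k)
  | 0 => inferInstanceAs (Fintype Unit)
  | k + 1 => by
    haveI := instFintypeIx k
    exact inferInstanceAs (Fintype (Fin 2 × Ix k))

instance instDecidableEqIx : ∀ k, DecidableEq (Ix k)
  | 0 => inferInstanceAs (DecidableEq Unit)
  | k + 1 => by
    haveI := instDecidableEqIx k
    exact inferInstanceAs (DecidableEq (Fin 2 × Ix k))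

/-- the position in the block -/
def pos : ∀ k, Ix k → ℕ
  | 0, _ => 0
  | k + 1, i => 2 ^ k * (i.1 : ℕ) + pos k i.2

/-- the block of a function on `ℕ × ℕ` -/
def node (k : ℕ) (F : ℕ → ℕ → ℝ) (i j : ℕ) : Matrix (Ix k) (Ix k) ℝ :=
  Matrix.of fun x y => F (2 ^ k * i + pos k x) (2 ^ k * j + pos k y)

/-- the term of scale `k + 1` of the discrete dyadic triangular form (with `i ^^^ j ^^^ l = 0`) -/
noncomputable def Ld (k : ℕ) (F₀ F₁ F₂ : ℕ → ℕ → ℝ) (i j l : ℕ) : ℝ :=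
  (∑ a : Fin 2, ∑ b : Fin 2, ∑ c : Fin 2, sg a * sg b * sg c *
    ∑ x ∈ range (2 ^ k), ∑ y ∈ range (2 ^ k), ∑ z ∈ range (2 ^ k),
      F₀ (2 ^ (k + 1) * i + 2 ^ k * a + x) (2 ^ (k + 1) * j + 2 ^ k * b + y) *
      F₁ (2 ^ (k + 1) * j + 2 ^ k * b + y) (2 ^ (k + 1) * l + 2 ^ k * c + z) *
      F₂ (2 ^ (k + 1) * l + 2 ^ k * c + z) (2 ^ (k + 1) * i + 2 ^ k * a + x)) / 2 ^ (k + 1)

end Tree

section Form

open MeasureTheory Set

/-- the dyadic interval `[2 ^ k n, 2 ^ k (n + 1))` -/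
def I (k : ℤ) (n : ℕ) : Set ℝ := Set.Ico ((2 : ℝ) ^ k * n) ((2 : ℝ) ^ k * (n + 1))

open Classical in
/-- the Haar function of the dyadic interval `I k n`: it is `1` on the left half and `-1` on the
right half -/
noncomputable def haar (k : ℤ) (n : ℕ) (x : ℝ) : ℝ :=
  (Set.Ico ((2 : ℝ) ^ k * n) ((2 : ℝ) ^ k * (n + 1 / 2))).indicator (fun _ => (1 : ℝ)) x -
    (Set.Ico ((2 : ℝ) ^ k * (n + 1 / 2)) ((2 : ℝ) ^ k * (n + 1))).indicator (fun _ => (1 : ℝ)) x

/-- the trilinear form `L_𝐈` of the triple of dyadic intervals `I k n.1, I k n.2.1, I k n.2.2` -/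
noncomputable def L (k : ℤ) (n : ℕ × ℕ × ℕ) (F₀ F₁ F₂ : ℝ × ℝ → ℝ) : ℝ :=
  (2 : ℝ) ^ (-k) * ∫ x in I k n.1 ×ˢ I k n.2.1 ×ˢ I k n.2.2,
    F₀ (x.1, x.2.1) * F₁ (x.2.1, x.2.2) * F₂ (x.2.2, x.1) *
      (haar k n.1 x.1 * haar k n.2.1 x.2.1 * haar k n.2.2 x.2.2)

/-- the cube of the norm of `F` in `L³([0, ∞)²)` -/
noncomputable def cube (F : ℝ × ℝ → ℝ) : ℝ :=
  ∫ x in Set.Ici (0 : ℝ) ×ˢ Set.Ici (0 : ℝ), |F x| ^ 3

end Form

end P075
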