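import Vale.Agent.P075.Transfer

/-!
# P075 : the boundedness of the dyadic triangular Hilbert transform
-/

namespace P075

open MeasureTheory Set

/-- the index triples of the dyadic triples in `𝒜_k` (they do not depend on `k`) -/
abbrev Trip : Type := {n : ℕ × ℕ × ℕ // n.1 ^^^ n.2.1 ^^^ n.2.2 = 0}

namespace FinalAux

theorem supp_bound {F : ℝ × ℝ → ℝ} (h : HasCompactSupport F) :
    ∃ R : ℝ, ∀ x, (R < x.1 ∨ R < x.2) → F x = 0 := by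
  obtain ⟨R, hR⟩ := h.isCompact.isBounded.subset_closedBall 0
  refine ⟨R, fun x hx => ?_⟩
  by_contra hne
  have h₁ : x ∈ Metric.closedBall (0 : ℝ × ℝ) R := hR (subset_tsupport F hne)
  rw [mem_closedBall_zero_iff, Prod.norm_def, max_le_iff, Real.norm_eq_abs, Real.norm_eq_abs] at h₁
  rcases hx with hx | hx
  · exact absurd ((le_abs_self _).trans h₁.1) (not_le.mpr hx)
  · exact absurd ((le_abs_self _).trans h₁.2) (not_le.mpr hx)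

theorem integrableOn_cube {F : ℝ × ℝ → ℝ} (hm : Measurable F) {K : ℝ} (hK : ∀ x, |F x| ≤ K)
    (hc : HasCompactSupport F) :
    IntegrableOn (fun x => |F x| ^ 3) (Set.Ici (0 : ℝ) ×ˢ Set.Ici (0 : ℝ)) := by
  have h₁ : IntegrableOn (fun x => |F x| ^ 3) (tsupport F) := by
    refine Measure.integrableOn_of_bounded (M := K ^ 3) hc.isCompact.measure_lt_top.ne
      ((hm.abs.pow_const 3).aestronglyMeasurable) ?_
    refine Filter.Eventually.of_forall fun x => ?_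
    rw [Real.norm_eq_abs, abs_of_nonneg (by positivity)]
    exact pow_le_pow_left₀ (abs_nonneg _) (hK x) 3
  have h₂ : Integrable (fun x => |F x| ^ 3) := by
    rw [← integrableOn_iff_integrable_of_support_subset (s := tsupport F)]
    · exact h₁
    · intro x hx
      apply subset_tsupport F
      intro h
      apply hx
      simp [h]
  exact h₂.integrableOn

theorem cube_nonneg (F : ℝ × ℝ → ℝ) : 0 ≤ cube F :=
  integral_nonneg fun x => by positivity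

theorem cube_smul (F : ℝ × ℝ → ℝ) {t : ℝ} (ht : 0 ≤ t) :
    cube (fun x => t * F x) = t ^ 3 * cube F := by
  unfold cube
  rw [← integral_const_mul]
  congr 1
  funext x
  rw [abs_mul, abs_of_nonneg ht, mul_pow]

theorem L_smul (k : ℤ) (n : ℕ × ℕ × ℕ) (F₀ F₁ F₂ : ℝ × ℝ → ℝ) (t₀ t₁ t₂ : ℝ) :
    L k n (fun x => t₀ * F₀ x) (fun x => t₁ * F₁ x) (fun x => t₂ * F₂ x) =
      t₀ * t₁ * t₂ * L k n F₀ F₁ F₂ := by
  unfold L
  rw [mul_left_comm (t₀ * t₁ * t₂)]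
  congr 1
  rw [← integral_const_mul]
  congr 1
  funext x
  ring

theorem L_zero {k : ℤ} {n : ℕ × ℕ × ℕ} {F₀ F₁ F₂ : ℝ × ℝ → ℝ} {R : ℝ}
    (h₀ : ∀ x, (R < x.1 ∨ R < x.2) → F₀ x = 0) (h₁ : ∀ x, (R < x.1 ∨ R < x.2) → F₁ x = 0)
    (h : R < (2 : ℝ) ^ k * n.1 ∨ R < (2 : ℝ) ^ k * n.2.1 ∨ R < (2 : ℝ) ^ k * n.2.2) :
    L k n F₀ F₁ F₂ = 0 := by
  unfold L
  rw [setIntegral_eq_zero_of_forall_eq_zero, mul_zero]
  rintro ⟨x, y, z⟩ ⟨hx, hy, hz⟩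
  simp only [I, Set.mem_Ico] at hx hy hz
  rcases h with h | h | h
  · have : F₀ (x, y) = 0 := h₀ _ (Or.inl (h.trans_le hx.1))
    simp [this]
  · have : F₀ (x, y) = 0 := h₀ _ (Or.inr (h.trans_le hy.1))
    simp [this]
  · have : F₁ (y, z) = 0 := h₁ _ (Or.inr (h.trans_le hz.1))
    simp [this]

/-- the triple with the two given first indices -/
def mk (p : ℕ × ℕ) : Trip := ⟨(p.1, p.2, p.1 ^^^ p.2), by simp⟩

theorem mk_inj : Function.Injective mk := by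
  intro p q h
  have h₂ : p.1 = q.1 := congrArg (fun t : Trip => t.1.1) h
  have h₃ : p.2 = q.2 := congrArg (fun t : Trip => t.1.2.1) h
  exact Prod.ext h₂ h₃

theorem mk_surj (n : Trip) : mk (n.1.1, n.1.2.1) = n := by
  obtain ⟨⟨a, b, c⟩, h⟩ := n
  have hc : a ^^^ b = c := Nat.xor_eq_zero_iff.mp h
  apply Subtype.ext
  simp only [mk, hc]

/-- outside of the indices below `M`, all terms vanish -/
theorem out {k : ℤ} {M : ℕ} {F₀ F₁ F₂ : ℝ × ℝ → ℝ} {R : ℝ}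
    (h₀ : ∀ x, (R < x.1 ∨ R < x.2) → F₀ x = 0) (h₁ : ∀ x, (R < x.1 ∨ R < x.2) → F₁ x = 0)
    (hM : R < (2 : ℝ) ^ k * M) (n : Trip)
    (hn : n ∉ (Finset.range M ×ˢ Finset.range M).image mk) : L k n.1 F₀ F₁ F₂ = 0 := by
  have h2 : (0 : ℝ) < (2 : ℝ) ^ k := by positivity
  by_cases ha : M ≤ n.1.1
  · apply L_zero h₀ h₁
    left
    refine hM.trans_le ?_
    exact mul_le_mul_of_nonneg_left (by exact_mod_cast ha) h2.le
  by_cases hb : M ≤ n.1.2.1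
  · apply L_zero h₀ h₁
    right; left
    refine hM.trans_le ?_
    exact mul_le_mul_of_nonneg_left (by exact_mod_cast hb) h2.le
  exfalso
  apply hn
  rw [Finset.mem_image]
  refine ⟨(n.1.1, n.1.2.1), ?_, mk_surj n⟩
  rw [Finset.mem_product, Finset.mem_range, Finset.mem_range]
  exact ⟨not_le.mp ha, not_le.mp hb⟩

theorem additive {F₀ F₁ F₂ : ℝ × ℝ → ℝ} (h₀ : Measurable F₀)
    (h₁ : Measurable F₁) (h₂ : Measurable F₂) {K : ℝ} (b₀ : ∀ x, |F₀ x| ≤ K)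
    (b₁ : ∀ x, |F₁ x| ≤ K) (b₂ : ∀ x, |F₂ x| ≤ K) (c₀ : HasCompactSupport F₀)
    (c₁ : HasCompactSupport F₁) (c₂ : HasCompactSupport F₂) (S : Finset ℤ) :
    (∀ k, Summable fun n : Trip => |L k n.1 F₀ F₁ F₂|) ∧
    ∑ k ∈ S, ∑' n : Trip, |L k n.1 F₀ F₁ F₂| ≤ 48 * (cube F₀ + cube F₁ + cube F₂) := by
  obtain ⟨R₀, hR₀⟩ := supp_bound c₀
  obtain ⟨R₁, hR₁⟩ := supp_bound c₁
  obtain ⟨R, hRd⟩ : ∃ R : ℝ, R = max R₀ R₁ := ⟨_, rfl⟩
  have r₀ : ∀ x : ℝ × ℝ, (R < x.1 ∨ R < x.2) → F₀ x = 0 := fun x hx =>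
    hR₀ x (hx.imp (fun h => (hRd ▸ le_max_left R₀ R₁).trans_lt h)
      (fun h => (hRd ▸ le_max_left R₀ R₁).trans_lt h))
  have r₁ : ∀ x : ℝ × ℝ, (R < x.1 ∨ R < x.2) → F₁ x = 0 := fun x hx =>
    hR₁ x (hx.imp (fun h => (hRd ▸ le_max_right R₀ R₁).trans_lt h)
      (fun h => (hRd ▸ le_max_right R₀ R₁).trans_lt h))
  have i₀ := integrableOn_cube h₀ b₀ c₀
  have i₁ := integrableOn_cube h₁ b₁ c₁
  have i₂ := integrableOn_cube h₂ b₂ c₂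
  refine ⟨?_, ?_⟩
  · intro k
    obtain ⟨M, hM⟩ : ∃ M : ℕ, R < (2 : ℝ) ^ k * M := by
      obtain ⟨M, hM⟩ := exists_nat_gt (R / (2 : ℝ) ^ k)
      refine ⟨M, ?_⟩
      rwa [div_lt_iff₀' (by positivity)] at hM
    apply summable_of_ne_finset_zero (s := (Finset.range M ×ˢ Finset.range M).image mk)
    intro n hn
    rw [out r₀ r₁ hM n hn, abs_zero]
  -- the base scale
  obtain ⟨m, hm⟩ : ∃ m : ℤ, ∀ k ∈ S, m + 1 ≤ k := by
    obtain ⟨m, hm⟩ := S.bddBelow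
    exact ⟨m - 1, fun k hk => by have := hm hk; omega⟩
  obtain ⟨N₁, hN₁⟩ : ∃ N : ℕ, ∀ k ∈ S, k - m - 1 < (N : ℤ) := by
    obtain ⟨u, hu⟩ := S.bddAbove
    exact ⟨(u - m).toNat, fun k hk => by have := hu hk; omega⟩
  obtain ⟨N₂, hN₂⟩ : ∃ N : ℕ, R < (2 : ℝ) ^ m * (2 : ℝ) ^ N := by
    obtain ⟨N, hN⟩ := pow_unbounded_of_one_lt (R / (2 : ℝ) ^ m) (by norm_num : (1 : ℝ) < 2)
    refine ⟨N, ?_⟩
    rwa [div_lt_iff₀' (by positivity)] at hN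
  obtain ⟨N, hN⟩ : ∃ N : ℕ, N = max N₁ N₂ := ⟨_, rfl⟩
  have hRN : R < (2 : ℝ) ^ m * (2 : ℝ) ^ N := by
    refine hN₂.trans_le (mul_le_mul_of_nonneg_left ?_ (by positivity))
    exact pow_le_pow_right₀ (by norm_num) (hN ▸ le_max_right _ _)
  have hSN : ∀ k ∈ S, ∃ j : ℕ, j < N ∧ k = m + ((j : ℤ) + 1) := by
    intro k hk
    have h₁ := hm k hk
    have h₂ := hN₁ k hk
    have h₃ : N₁ ≤ N := hN ▸ le_max_left _ _
    refine ⟨(k - m - 1).toNat, ?_, ?_⟩ <;> omega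
  have ht := transfer m N h₀ h₁ h₂ b₀ b₁ b₂ i₀ i₁ i₂
  refine le_trans ?_ ht
  -- every scale
  have hscale : ∀ j : ℕ, j < N → ∑' n : Trip, |L (m + ((j : ℤ) + 1)) n.1 F₀ F₁ F₂| =
      ∑ i ∈ Finset.range (2 ^ (N - (j + 1))), ∑ l ∈ Finset.range (2 ^ (N - (j + 1))),
      |L (m + ((j : ℤ) + 1)) (i, l, i ^^^ l) F₀ F₁ F₂| := by
    intro j hj
    have hM : R < (2 : ℝ) ^ (m + ((j : ℤ) + 1)) * ((2 ^ (N - (j + 1)) : ℕ) : ℝ) := by
      have e : (2 : ℝ) ^ (m + ((j : ℤ) + 1)) * ((2 ^ (N - (j + 1)) : ℕ) : ℝ) =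
          (2 : ℝ) ^ m * (2 : ℝ) ^ N := by
        rw [zpow_add₀ (by norm_num : (2 : ℝ) ≠ 0), mul_assoc]
        congr 1
        have : ((j : ℤ) + 1) = ((j + 1 : ℕ) : ℤ) := by push_cast; ring
        rw [this, zpow_natCast]
        push_cast
        rw [← pow_add]
        congr 1
        omega
      rw [e]
      exact hRN
    rw [tsum_eq_sum (s := (Finset.range (2 ^ (N - (j + 1))) ×ˢ
      Finset.range (2 ^ (N - (j + 1)))).image mk)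
      (fun n hn => by rw [out r₀ r₁ hM n hn, abs_zero]),
      Finset.sum_image (fun a _ b _ h => mk_inj h), Finset.sum_product]
    rfl
  -- the sum over the scales
  obtain ⟨T, hT⟩ : ∃ T : ℕ → ℝ, T = fun j => ∑ i ∈ Finset.range (2 ^ (N - (j + 1))),
      ∑ l ∈ Finset.range (2 ^ (N - (j + 1))),
      |L (m + ((j : ℤ) + 1)) (i, l, i ^^^ l) F₀ F₁ F₂| := ⟨_, rfl⟩
  have hTn : ∀ j, 0 ≤ T j := by
    intro j
    rw [hT]
    exact Finset.sum_nonneg fun i _ => Finset.sum_nonneg fun l _ => abs_nonneg _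
  have hS : ∑ k ∈ S, ∑' n : Trip, |L k n.1 F₀ F₁ F₂| = ∑ k ∈ S, T (k - m - 1).toNat := by
    refine Finset.sum_congr rfl fun k hk => ?_
    obtain ⟨j, hj, hkj⟩ := hSN k hk
    have : (k - m - 1).toNat = j := by omega
    rw [this, hT, hkj]
    exact hscale j hj
  have hinj : Set.InjOn (fun k : ℤ => (k - m - 1).toNat) S := by
    intro a ha b hb hab
    obtain ⟨j, hj, haj⟩ := hSN a ha
    obtain ⟨j', hj', hbj⟩ := hSN b hb
    simp only at hab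
    omega
  rw [hS, ← Finset.sum_image (f := T) hinj]
  have : ∑ j ∈ S.image (fun k : ℤ => (k - m - 1).toNat), T j ≤ ∑ j ∈ Finset.range N, T j := by
    refine Finset.sum_le_sum_of_subset_of_nonneg ?_ (fun j _ _ => hTn j)
    intro j hj
    rw [Finset.mem_image] at hj
    obtain ⟨k, hk, hkj⟩ := hj
    obtain ⟨j', hj', hkj'⟩ := hSN k hk
    rw [Finset.mem_range]
    omega
  rw [hT] at this ⊢
  exact this

theorem lim {a b c d : ℝ} (h : ∀ t : ℝ, 0 < t → a ≤ 144 * ((b + t) * (c + t) * (d + t))) :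
    a ≤ 144 * (b * c * d) := by
  have hcont : Continuous (fun t : ℝ => 144 * ((b + t) * (c + t) * (d + t))) := by fun_prop
  have hc : Filter.Tendsto (fun t : ℝ => 144 * ((b + t) * (c + t) * (d + t)))
      (nhdsWithin 0 (Set.Ioi 0)) (nhds (144 * ((b + 0) * (c + 0) * (d + 0)))) :=
    (hcont.tendsto 0).mono_left nhdsWithin_le_nhds
  have h' : ∀ᶠ t : ℝ in nhdsWithin 0 (Set.Ioi 0), a ≤ 144 * ((b + t) * (c + t) * (d + t)) := by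
    filter_upwards [self_mem_nhdsWithin] with t ht
    exact h t ht
  have h'' := ge_of_tendsto hc h'
  simpa using h''

theorem normalize {c s t : ℝ} (hc : 0 ≤ c) (ht : 0 < t) (hs : s = c ^ ((1 : ℝ) / 3)) :
    (1 / (s + t)) ^ 3 * c ≤ 1 := by
  have hs0 : 0 ≤ s := hs ▸ Real.rpow_nonneg hc _
  have h3 : s ^ 3 = c := by
    rw [hs, ← Real.rpow_natCast, ← Real.rpow_mul hc]
    norm_num
  rw [div_pow, one_pow, one_div, inv_mul_le_iff₀ (by positivity), mul_one, ← h3]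
  exact pow_le_pow_left₀ hs0 (by linarith) 3

theorem product {F₀ F₁ F₂ : ℝ × ℝ → ℝ} (h₀ : Measurable F₀)
    (h₁ : Measurable F₁) (h₂ : Measurable F₂) (b₀ : ∃ K : ℝ, ∀ x, |F₀ x| ≤ K)
    (b₁ : ∃ K : ℝ, ∀ x, |F₁ x| ≤ K) (b₂ : ∃ K : ℝ, ∀ x, |F₂ x| ≤ K) (c₀ : HasCompactSupport F₀)
    (c₁ : HasCompactSupport F₁) (c₂ : HasCompactSupport F₂) (S : Finset ℤ) :
    (∀ k, Summable fun n : Trip => |L k n.1 F₀ F₁ F₂|) ∧
    ∑ k ∈ S, ∑' n : Trip, |L k n.1 F₀ F₁ F₂| ≤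
      144 * (cube F₀ ^ ((1 : ℝ) / 3) * cube F₁ ^ ((1 : ℝ) / 3) * cube F₂ ^ ((1 : ℝ) / 3)) := by
  obtain ⟨K₀, hK₀⟩ := b₀
  obtain ⟨K₁, hK₁⟩ := b₁
  obtain ⟨K₂, hK₂⟩ := b₂
  obtain ⟨K, hK⟩ : ∃ K : ℝ, K = max K₀ (max K₁ K₂) := ⟨_, rfl⟩
  have g₀ : ∀ x, |F₀ x| ≤ K := fun x => (hK₀ x).trans (hK ▸ le_max_left _ _)
  have g₁ : ∀ x, |F₁ x| ≤ K := fun x =>
    (hK₁ x).trans (hK ▸ (le_max_left _ _).trans (le_max_right _ _))
  have g₂ : ∀ x, |F₂ x| ≤ K := fun x =>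
    (hK₂ x).trans (hK ▸ (le_max_right _ _).trans (le_max_right _ _))
  refine ⟨(additive h₀ h₁ h₂ g₀ g₁ g₂ c₀ c₁ c₂ S).1, ?_⟩
  apply lim
  intro t ht
  obtain ⟨s₀, hs₀⟩ : ∃ s : ℝ, s = cube F₀ ^ ((1 : ℝ) / 3) := ⟨_, rfl⟩
  obtain ⟨s₁, hs₁⟩ : ∃ s : ℝ, s = cube F₁ ^ ((1 : ℝ) / 3) := ⟨_, rfl⟩
  obtain ⟨s₂, hs₂⟩ : ∃ s : ℝ, s = cube F₂ ^ ((1 : ℝ) / 3) := ⟨_, rfl⟩
  have p₀ : 0 < s₀ + t := by
    have : 0 ≤ s₀ := hs₀ ▸ Real.rpow_nonneg (cube_nonneg _) _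
    linarith
  have p₁ : 0 < s₁ + t := by
    have : 0 ≤ s₁ := hs₁ ▸ Real.rpow_nonneg (cube_nonneg _) _
    linarith
  have p₂ : 0 < s₂ + t := by
    have : 0 ≤ s₂ := hs₂ ▸ Real.rpow_nonneg (cube_nonneg _) _
    linarith
  have n₀ := normalize (cube_nonneg F₀) ht hs₀
  have n₁ := normalize (cube_nonneg F₁) ht hs₁
  have n₂ := normalize (cube_nonneg F₂) ht hs₂
  rw [← hs₀, ← hs₁, ← hs₂]
  -- bounds of the multiples
  have bd : ∀ (F : ℝ × ℝ → ℝ) (u : ℝ), 0 < u → (∀ x, |F x| ≤ K) →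
      u ≤ 1 / (s₀ + t) + 1 / (s₁ + t) + 1 / (s₂ + t) →
      ∀ x, |u * F x| ≤ (1 / (s₀ + t) + 1 / (s₁ + t) + 1 / (s₂ + t)) * K := by
    intro F u hu hF hle x
    rw [abs_mul, abs_of_pos hu]
    have : 0 ≤ K := (abs_nonneg _).trans (hF x)
    exact mul_le_mul hle (hF x) (abs_nonneg _) (by positivity)
  have q₀ : 0 < 1 / (s₀ + t) := by positivity
  have q₁ : 0 < 1 / (s₁ + t) := by positivity
  have q₂ : 0 < 1 / (s₂ + t) := by positivity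
  have key := (additive (h₀.const_mul (1 / (s₀ + t))) (h₁.const_mul (1 / (s₁ + t)))
    (h₂.const_mul (1 / (s₂ + t)))
    (bd F₀ _ q₀ g₀ (by linarith)) (bd F₁ _ q₁ g₁ (by linarith)) (bd F₂ _ q₂ g₂ (by linarith))
    c₀.mul_left c₁.mul_left c₂.mul_left S).2
  rw [cube_smul F₀ q₀.le, cube_smul F₁ q₁.le, cube_smul F₂ q₂.le] at key
  simp only [L_smul, abs_mul (1 / (s₀ + t) * (1 / (s₁ + t)) * (1 / (s₂ + t))), tsum_mul_left,
    ← Finset.mul_sum] at key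
  rw [abs_of_pos (by positivity)] at key
  have k₂ : (1 / (s₀ + t) * (1 / (s₁ + t)) * (1 / (s₂ + t))) *
      ∑ k ∈ S, ∑' n : Trip, |L k n.1 F₀ F₁ F₂| ≤ 144 := by
    refine key.trans ?_
    linarith
  have k₃ : (1 / (s₀ + t) * (1 / (s₁ + t)) * (1 / (s₂ + t))) =
      ((s₀ + t) * (s₁ + t) * (s₂ + t))⁻¹ := by
    field_simp
  rw [k₃, inv_mul_le_iff₀ (by positivity)] at k₂
  linarith

end FinalAux

/-- the boundedness of the dyadic triangular Hilbert transform, with the constant `144` -/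
theorem main {F₀ F₁ F₂ : ℝ × ℝ → ℝ} (h₀ : Measurable F₀)
    (h₁ : Measurable F₁) (h₂ : Measurable F₂) (b₀ : ∃ K : ℝ, ∀ x, |F₀ x| ≤ K)
    (b₁ : ∃ K : ℝ, ∀ x, |F₁ x| ≤ K) (b₂ : ∃ K : ℝ, ∀ x, |F₂ x| ≤ K) (c₀ : HasCompactSupport F₀)
    (c₁ : HasCompactSupport F₁) (c₂ : HasCompactSupport F₂) :
    (∀ k, Summable fun n : Trip => |L k n.1 F₀ F₁ F₂|) ∧
    (∀ S : Finset ℤ, ∑ k ∈ S, ∑' n : Trip, |L k n.1 F₀ F₁ F₂| ≤
      144 * (cube F₀ ^ ((1 : ℝ) / 3) * cube F₁ ^ ((1 : ℝ) / 3) * cube F₂ ^ ((1 : ℝ) / 3))) ∧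
    (∀ (S : Finset ℤ) (ε : ℤ → ℝ), (∀ k ∈ S, |ε k| ≤ 1) →
      |∑ k ∈ S, ε k * ∑' n : Trip, L k n.1 F₀ F₁ F₂| ≤
      144 * (cube F₀ ^ ((1 : ℝ) / 3) * cube F₁ ^ ((1 : ℝ) / 3) * cube F₂ ^ ((1 : ℝ) / 3))) := by
  refine ⟨(FinalAux.product h₀ h₁ h₂ b₀ b₁ b₂ c₀ c₁ c₂ ∅).1, fun S =>
    (FinalAux.product h₀ h₁ h₂ b₀ b₁ b₂ c₀ c₁ c₂ S).2, fun S ε hε => ?_⟩
  have hs := (FinalAux.product h₀ h₁ h₂ b₀ b₁ b₂ c₀ c₁ c₂ S).1
  refine le_trans ?_ (FinalAux.product h₀ h₁ h₂ b₀ b₁ b₂ c₀ c₁ c₂ S).2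
  refine (Finset.abs_sum_le_sum_abs _ _).trans (Finset.sum_le_sum fun k hk => ?_)
  rw [abs_mul]
  have h : |∑' n : Trip, L k n.1 F₀ F₁ F₂| ≤ ∑' n : Trip, |L k n.1 F₀ F₁ F₂| := by
    have := norm_tsum_le_tsum_norm (f := fun n : Trip => L k n.1 F₀ F₁ F₂)
      (by simpa [Real.norm_eq_abs] using hs k)
    simpa [Real.norm_eq_abs] using this
  calc |ε k| * |∑' n : Trip, L k n.1 F₀ F₁ F₂| ≤ 1 * ∑' n : Trip, |L k n.1 F₀ F₁ F₂| :=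
        mul_le_mul (hε k hk) h (abs_nonneg _) zero_le_one
    _ = _ := one_mul _

end P075
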