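import Vale.Agent.P075.Polar
import Vale.Agent.P075.Block

/-!
# P075 : module G, the bound for the gain
-/

namespace P075

open Matrix Finset

namespace GainAux

variable {n : Type} [Fintype n]

/-- the double Haar transform -/
def H (A : Fin 2 → Fin 2 → Matrix n n ℝ) (s t : ℝ) : Matrix n n ℝ :=
  (A 0 0 + t • A 0 1) + s • (A 1 0 + t • A 1 1)

/-- the trace of the product -/
noncomputable def tt (A B C : Fin 2 → Fin 2 → Matrix n n ℝ) (s t u : ℝ) : ℝ :=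
  (H A s t * H B (-t) u * H C (-u) (-s)).trace

lemma gain_eq (A B C : Fin 2 → Fin 2 → Matrix n n ℝ) :
    8 * gain A B C = tt A B C 1 1 1 + tt A B C 1 1 (-1) + tt A B C 1 (-1) 1 +
      tt A B C 1 (-1) (-1) + tt A B C (-1) 1 1 + tt A B C (-1) 1 (-1) + tt A B C (-1) (-1) 1 +
      tt A B C (-1) (-1) (-1) := by
  simp only [gain, tt, H, Fin.sum_univ_two, sg, Matrix.add_mul, Matrix.mul_add, smul_add,
    trace_add, one_mul, mul_one, neg_neg, if_true, neg_mul, mul_neg, one_smul, neg_smul,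
    trace_neg, neg_add, Fin.isValue, one_ne_zero, if_false]
  ring

lemma psd_tm (X : Matrix n n ℝ) : (Xᵀ * X).PosSemidef := by
  have h := Matrix.posSemidef_conjTranspose_mul_self X
  rwa [Matrix.conjTranspose_eq_transpose_of_trivial] at h

lemma psd_mt (X : Matrix n n ℝ) : (X * Xᵀ).PosSemidef := by
  have h := Matrix.posSemidef_self_mul_conjTranspose X
  rwa [Matrix.conjTranspose_eq_transpose_of_trivial] at h

/-- the domination of one block -/
lemma dom {X₀ X₁ D E : Matrix n n ℝ} (hE : E.PosSemidef) (h : X₀ᵀ * X₀ + X₁ᵀ * X₁ + E = D)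
    {s : ℝ} (hs : s = 1 ∨ s = -1) :
    ((4 : ℝ) • D - (X₀ + s • X₁)ᵀ * (X₀ + s • X₁)).PosSemidef := by
  have e : (4 : ℝ) • D - (X₀ + s • X₁)ᵀ * (X₀ + s • X₁) =
      (X₀ + (-s) • X₁)ᵀ * (X₀ + (-s) • X₁) + ((2 : ℝ) • (X₀ᵀ * X₀) + (2 : ℝ) • (X₁ᵀ * X₁)) +
        (4 : ℝ) • E := by
    rw [← h]
    rcases hs with rfl | rfl
    · simp only [one_smul, neg_smul, transpose_add, transpose_neg, Matrix.add_mul,
        Matrix.mul_add, Matrix.neg_mul, Matrix.mul_neg, smul_add]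
      module
    · simp only [one_smul, neg_smul, neg_neg, transpose_add, transpose_neg, Matrix.add_mul,
        Matrix.mul_add, Matrix.neg_mul, Matrix.mul_neg, smul_add]
      module
  rw [e]
  refine ((psd_tm _).add (((psd_tm X₀).smul ?_).add ((psd_tm X₁).smul ?_))).add (hE.smul ?_) <;>
    norm_num

lemma side {A B : Fin 2 → Fin 2 → Matrix n n ℝ} {p : Fin 2 → Matrix n n ℝ}
    (h₁ : ∀ b b', ∑ a, (A a b)ᵀ * A a b' + ∑ c, B b c * (B b' c)ᵀ = p b * p b')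
    {s t : ℝ} (hs : s = 1 ∨ s = -1) (ht : t = 1 ∨ t = -1) :
    ((4 : ℝ) • ((p 0 + t • p 1) * (p 0 + t • p 1)) - (H A s t)ᵀ * H A s t).PosSemidef ∧
    ((4 : ℝ) • ((p 0 + t • p 1) * (p 0 + t • p 1)) - H B t s * (H B t s)ᵀ).PosSemidef := by
  have h00 := h₁ 0 0
  have h01 := h₁ 0 1
  have h10 := h₁ 1 0
  have h11 := h₁ 1 1
  simp only [Fin.sum_univ_two] at h00 h01 h10 h11
  have hD : ((A 0 0 + t • A 0 1)ᵀ * (A 0 0 + t • A 0 1) +
      (A 1 0 + t • A 1 1)ᵀ * (A 1 0 + t • A 1 1)) +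
      ((B 0 0 + t • B 1 0) * (B 0 0 + t • B 1 0)ᵀ +
        (B 0 1 + t • B 1 1) * (B 0 1 + t • B 1 1)ᵀ) =
      (p 0 + t • p 1) * (p 0 + t • p 1) := by
    simp only [Matrix.add_mul, Matrix.mul_add, transpose_add, transpose_smul, Matrix.smul_mul,
      Matrix.mul_smul, ← h00, ← h01, ← h10, ← h11, smul_add]
    rcases ht with rfl | rfl <;> module
  constructor
  · exact dom ((psd_mt _).add (psd_mt _)) hD hs
  · have h := dom (X₀ := (B 0 0 + t • B 1 0)ᵀ) (X₁ := (B 0 1 + t • B 1 1)ᵀ)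
      ((psd_tm (A 0 0 + t • A 0 1)).add (psd_tm (A 1 0 + t • A 1 1)))
      (D := (p 0 + t • p 1) * (p 0 + t • p 1))
      (by rw [transpose_transpose, transpose_transpose, ← hD]; abel) hs
    have e : (B 0 0 + t • B 1 0)ᵀ + s • (B 0 1 + t • B 1 1)ᵀ = (H B t s)ᵀ := by
      simp only [H, transpose_add, transpose_smul, smul_add]
      rcases hs with rfl | rfl <;> rcases ht with rfl | rfl <;> module
    rw [e, transpose_transpose] at h
    exact h

variable [DecidableEq n]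

/-- a form of the Hoelder inequality -/
lemma holder (X Y Z : Matrix n n ℝ) :
    3 * |(X * Y * Z).trace| ≤ phi (Xᵀ * X) + phi (Yᵀ * Y) + phi (Zᵀ * Z) := by
  have z : ∀ W : Matrix n n ℝ, (W - W).PosSemidef := fun W => by
    rw [sub_self]
    exact Matrix.PosSemidef.zero
  have h := base_trace (A := X) (B := Y) (C := Z) (x₀ := rt (X * Xᵀ))
    (x₁ := rt (Xᵀ * X)) (rt_posSemidef _) (rt_posSemidef _)
    (by rw [rt_mul_rt (psd_tm X)]; exact z _)
    (by rw [rt_mul_rt (psd_mt X)]; exact z _)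
  have h1 := young (rt_posSemidef (Y * Yᵀ)) (rt_posSemidef (Xᵀ * X))
  have h2 := young (rt_posSemidef (Zᵀ * Z)) (rt_posSemidef (X * Xᵀ))
  rw [rt_mul_rt (psd_mt Y)] at h1
  rw [rt_mul_rt (psd_tm Z)] at h2
  have e1 : (rt (Xᵀ * X) * (Y * Yᵀ)).trace = (Y * Yᵀ * rt (Xᵀ * X)).trace :=
    Matrix.trace_mul_comm _ _
  have e2 : (rt (X * Xᵀ) * (Zᵀ * Z)).trace = (Zᵀ * Z * rt (X * Xᵀ)).trace :=
    Matrix.trace_mul_comm _ _
  have f1 : ∀ W : Matrix n n ℝ, W.PosSemidef → (W * rt W).trace = phi W := fun W hW => by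
    rw [phi, rt_mul_rt hW]
  have c1 := phi_comm X
  have c2 := phi_comm Y
  rw [f1 _ (psd_mt Y), rt_mul_rt (psd_tm X), f1 _ (psd_tm X)] at h1
  rw [f1 _ (psd_tm Z), rt_mul_rt (psd_mt X), f1 _ (psd_mt X)] at h2
  linarith

/-- one noncyclic term -/
lemma noncyc {A B C s d s' d' : Matrix n n ℝ} (hs : s.PosSemidef) (hs' : s'.PosSemidef)
    (h₁ : ((4 : ℝ) • (s * s) - Aᵀ * A).PosSemidef)
    (h₀ : ((4 : ℝ) • (s' * s') - A * Aᵀ).PosSemidef)
    (hB : ((4 : ℝ) • (d * d) - B * Bᵀ).PosSemidef)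
    (hC : ((4 : ℝ) • (d' * d') - Cᵀ * C).PosSemidef) :
    |(A * B * C).trace| ≤ 4 * ((s * d * d).trace + (s' * d' * d').trace) := by
  have e : ∀ w : Matrix n n ℝ, (4 : ℝ) • (w * w) = ((2 : ℝ) • w) * ((2 : ℝ) • w) := fun w => by
    rw [Matrix.smul_mul, Matrix.mul_smul, smul_smul]
    norm_num
  have h2s : ((2 : ℝ) • s).PosSemidef := hs.smul (by norm_num)
  have h2s' : ((2 : ℝ) • s').PosSemidef := hs'.smul (by norm_num)
  rw [e s] at h₁
  rw [e s'] at h₀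
  have h := base_trace (B := B) (C := C) h2s' h2s h₁ h₀
  have g1 := trace_mul_le h2s hB
  have g2 := trace_mul_le h2s' hC
  have e1 : ∀ a b : Matrix n n ℝ, ((2 : ℝ) • a * ((4 : ℝ) • (b * b))).trace =
      8 * (a * b * b).trace := fun a b => by
    rw [Matrix.smul_mul, Matrix.mul_smul, smul_smul, trace_smul, Matrix.mul_assoc, smul_eq_mul]
    norm_num
  rw [e1] at g1 g2
  linarith

/-- the bound for the norm of a matrix dominated by a difference -/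
lemma cyc {W p q : Matrix n n ℝ} (hp : p.PosSemidef) (hq : q.PosSemidef)
    (hW : W.PosSemidef) (h : ((4 : ℝ) • ((p - q) * (p - q)) - W).PosSemidef) :
    phi W ≤ 8 * ((p + q) * (p - q) * (p - q)).trace := by
  have h1 := phi_mono hW h
  have hd : ((p - q) * (p - q)).PosSemidef := by
    have h2 := psd_tm (p - q)
    have hsym : (p - q)ᵀ = p - q := by
      have h3 := hp.isHermitian
      have h4 := hq.isHermitian
      rw [Matrix.IsHermitian, Matrix.conjTranspose_eq_transpose_of_trivial] at h3 h4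
      rw [transpose_sub, h3, h4]
    rwa [hsym] at h2
  have h5 := phi_smul hd (c := 2) (by norm_num)
  have h6 := absd hp hq
  have e : ((2 : ℝ) * 2) = 4 := by norm_num
  rw [e] at h5
  rw [h5] at h1
  norm_num at h1
  linarith

end GainAux

open GainAux in
theorem gain_bound {n : Type} [Fintype n] [DecidableEq n]
    {A B C : Fin 2 → Fin 2 → Matrix n n ℝ} {p q r : Fin 2 → Matrix n n ℝ}
    (hp : ∀ b, (p b).PosSemidef) (hq : ∀ b, (q b).PosSemidef) (hr : ∀ b, (r b).PosSemidef)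
    (h₁ : ∀ b b', ∑ a, (A a b)ᵀ * A a b' + ∑ c, B b c * (B b' c)ᵀ = p b * p b')
    (h₂ : ∀ c c', ∑ b, (B b c)ᵀ * B b c' + ∑ a, C c a * (C c' a)ᵀ = q c * q c')
    (h₀ : ∀ a a', ∑ c, (C c a)ᵀ * C c a' + ∑ b, A a b * (A a' b)ᵀ = r a * r a') :
    |gain A B C| ≤ 4 * (((p 0 + p 1) * (p 0 - p 1) * (p 0 - p 1)).trace +
      ((q 0 + q 1) * (q 0 - q 1) * (q 0 - q 1)).trace +
      ((r 0 + r 1) * (r 0 - r 1) * (r 0 - r 1)).trace) := by
  have P1 : (1 : ℝ) = 1 ∨ (1 : ℝ) = -1 := Or.inl rfl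
  have M1 : (-1 : ℝ) = 1 ∨ (-1 : ℝ) = -1 := Or.inr rfl
  have sp : (p 0 + p 1).PosSemidef := (hp 0).add (hp 1)
  have sq : (q 0 + q 1).PosSemidef := (hq 0).add (hq 1)
  have sr : (r 0 + r 1).PosSemidef := (hr 0).add (hr 1)
  -- the domination at the vertices
  have ep : ∀ w : Fin 2 → Matrix n n ℝ, w 0 + (1 : ℝ) • w 1 = w 0 + w 1 := fun w => by
    rw [one_smul]
  have em : ∀ w : Fin 2 → Matrix n n ℝ, w 0 + (-1 : ℝ) • w 1 = w 0 - w 1 := fun w => by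
    rw [neg_smul, one_smul, sub_eq_add_neg]
  -- at `p`
  have p11 := side h₁ P1 P1
  have p1m := side h₁ P1 M1
  have pm1 := side h₁ M1 P1
  have pmm := side h₁ M1 M1
  have q11 := side h₂ P1 P1
  have q1m := side h₂ P1 M1
  have qm1 := side h₂ M1 P1
  have qmm := side h₂ M1 M1
  have r11 := side h₀ P1 P1
  have r1m := side h₀ P1 M1
  have rm1 := side h₀ M1 P1
  have rmm := side h₀ M1 M1
  rw [ep] at p11 pm1 q11 qm1 r11 rm1
  rw [em] at p1m pmm q1m qmm r1m rmm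
  have np : 0 ≤ ((p 0 + p 1) * (p 0 - p 1) * (p 0 - p 1)).trace :=
    (phi_nonneg _).trans (absd (hp 0) (hp 1))
  have nq : 0 ≤ ((q 0 + q 1) * (q 0 - q 1) * (q 0 - q 1)).trace :=
    (phi_nonneg _).trans (absd (hq 0) (hq 1))
  have nr : 0 ≤ ((r 0 + r 1) * (r 0 - r 1) * (r 0 - r 1)).trace :=
    (phi_nonneg _).trans (absd (hr 0) (hr 1))
  have g := gain_eq A B C
  simp only [tt, neg_neg] at g
  -- the terms with a matrix with two signs `+`
  have t1 : |(H A 1 1 * H B (-1) 1 * H C (-1) (-1)).trace| ≤ _ :=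
    noncyc sp sr p11.1 r11.2 p1m.2 rmm.1
  have t2 : |(H A 1 1 * H B (-1) (-1) * H C 1 (-1)).trace| ≤ _ :=
    noncyc sp sr p11.1 r11.2 pmm.2 r1m.1
  have t3 : |(H B 1 1 * H C (-1) (-1) * H A 1 (-1)).trace| ≤ _ :=
    noncyc sq sp q11.1 p11.2 qmm.2 p1m.1
  have t4 : |(H B 1 1 * H C (-1) 1 * H A (-1) (-1)).trace| ≤ _ :=
    noncyc sq sp q11.1 p11.2 q1m.2 pmm.1
  have t5 : |(H C 1 1 * H A (-1) 1 * H B (-1) (-1)).trace| ≤ _ :=
    noncyc sr sq r11.1 q11.2 r1m.2 qmm.1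
  have t6 : |(H C 1 1 * H A (-1) (-1) * H B 1 (-1)).trace| ≤ _ :=
    noncyc sr sq r11.1 q11.2 rmm.2 q1m.1
  have c3 : ∀ X Y Z : Matrix n n ℝ, (X * Y * Z).trace = (Y * Z * X).trace := fun X Y Z => by
    rw [Matrix.mul_assoc, Matrix.trace_mul_comm]
  -- the two cyclic terms
  have t7 := holder (H A 1 (-1)) (H B 1 (-1)) (H C 1 (-1))
  have a7 := cyc (hp 0) (hp 1) (psd_tm _) p1m.1
  have b7 := cyc (hq 0) (hq 1) (psd_tm _) q1m.1
  have d7 := cyc (hr 0) (hr 1) (psd_tm _) r1m.1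
  have t8 := holder (H A (-1) 1) (H B (-1) 1) (H C (-1) 1)
  rw [← phi_comm, ← phi_comm, ← phi_comm] at t8
  have a8 := cyc (hr 0) (hr 1) (psd_mt _) r1m.2
  have b8 := cyc (hp 0) (hp 1) (psd_mt _) p1m.2
  have d8 := cyc (hq 0) (hq 1) (psd_mt _) q1m.2
  rw [← c3] at t3 t4
  rw [c3] at t5 t6
  rw [abs_le] at t1 t2 t3 t4 t5 t6 ⊢
  have u7 := le_abs_self (H A 1 (-1) * H B 1 (-1) * H C 1 (-1)).trace
  have v7 := neg_abs_le (H A 1 (-1) * H B 1 (-1) * H C 1 (-1)).trace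
  have u8 := le_abs_self (H A (-1) 1 * H B (-1) 1 * H C (-1) 1).trace
  have v8 := neg_abs_le (H A (-1) 1 * H B (-1) 1 * H C (-1) 1).trace
  obtain ⟨t1a, t1b⟩ := t1
  obtain ⟨t2a, t2b⟩ := t2
  obtain ⟨t3a, t3b⟩ := t3
  obtain ⟨t4a, t4b⟩ := t4
  obtain ⟨t5a, t5b⟩ := t5
  obtain ⟨t6a, t6b⟩ := t6
  constructor <;> linarith

end P075
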