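import Vale.Agent.P075.Polar

/-!
# P075 : module F, the change of gauge
-/

namespace P075

open Matrix Finset

variable {n : Type} [Fintype n] [DecidableEq n]

namespace GaugeAux

omit [DecidableEq n] in
theorem fix {K : Matrix n n ℝ} {P Q : Fin 2 → Matrix n n ℝ} (h : K * row P Q = row P Q)
    (c : Fin 2) : K * P c = P c ∧ K * Q c = Q c := by
  constructor
  · ext i j
    have := congrFun (congrFun h i) (Sum.inl (c, j))
    exact this
  · ext i j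
    have := congrFun (congrFun h i) (Sum.inr (c, j))
    exact this

omit [DecidableEq n] in
theorem row_row (P Q P' Q' : Fin 2 → Matrix n n ℝ) :
    row P Q * (row P' Q')ᵀ = ∑ c, P c * (P' c)ᵀ + ∑ c, Q c * (Q' c)ᵀ := by
  ext i j
  simp only [mul_apply, Fintype.sum_sum_type, Fintype.sum_prod_type, row, transpose_apply, of_apply,
    Sum.elim_inl, Sum.elim_inr, Matrix.add_apply, Matrix.sum_apply]

/-- the data at a vertex -/
theorem vertex (A B : Fin 2 → Fin 2 → Matrix n n ℝ) :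
    ∃ J : Fin 2 → Matrix ((Fin 2 × n) ⊕ (Fin 2 × n)) n ℝ,
      (∀ b, J b * row (B b) (fun a => (A a b)ᵀ) = vp A B b) ∧
      (∀ a b, A a b * ((J b)ᵀ * J b) = A a b) ∧ (∀ b c, (J b)ᵀ * J b * B b c = B b c) := by
  choose J hJ₁ hJ₂ using fun b => polar (row (B b) (fun a => (A a b)ᵀ))
  refine ⟨J, fun b => hJ₁ b, ?_, ?_⟩
  · intro a b
    have h : (J b)ᵀ * J b * row (B b) (fun a => (A a b)ᵀ) = row (B b) (fun a => (A a b)ᵀ) := by
      rw [Matrix.mul_assoc, hJ₁ b, hJ₂ b]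
    have h' := congrArg transpose (fix h a).2
    simp only [transpose_mul, transpose_transpose] at h'
    exact h'
  · intro b c
    have h : (J b)ᵀ * J b * row (B b) (fun a => (A a b)ᵀ) = row (B b) (fun a => (A a b)ᵀ) := by
      rw [Matrix.mul_assoc, hJ₁ b, hJ₂ b]
    exact (fix h c).1

theorem gram (A B : Fin 2 → Fin 2 → Matrix n n ℝ)
    (J K L : Fin 2 → Matrix ((Fin 2 × n) ⊕ (Fin 2 × n)) n ℝ)
    (hJ : ∀ b, J b * row (B b) (fun a => (A a b)ᵀ) = vp A B b)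
    (hK : ∀ a b, (K a)ᵀ * K a * A a b = A a b)
    (hL : ∀ b c, B b c * ((L c)ᵀ * L c) = B b c) (b b' : Fin 2) :
    ∑ a, (K a * A a b * (J b)ᵀ)ᵀ * (K a * A a b' * (J b')ᵀ) +
      ∑ c, (J b * B b c * (L c)ᵀ) * (J b' * B b' c * (L c)ᵀ)ᵀ = vp A B b * vp A B b' := by
  have e₁ : ∀ a, (K a * A a b * (J b)ᵀ)ᵀ * (K a * A a b' * (J b')ᵀ) =
      J b * ((A a b)ᵀ * ((A a b')ᵀ)ᵀ) * (J b')ᵀ := by
    intro a
    have : (K a * A a b * (J b)ᵀ)ᵀ * (K a * A a b' * (J b')ᵀ) =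
        J b * ((A a b)ᵀ * ((K a)ᵀ * K a * A a b')) * (J b')ᵀ := by
      simp only [transpose_mul, transpose_transpose, Matrix.mul_assoc]
    rw [this, hK, transpose_transpose]
  have e₂ : ∀ c, (J b * B b c * (L c)ᵀ) * (J b' * B b' c * (L c)ᵀ)ᵀ =
      J b * (B b c * (B b' c)ᵀ) * (J b')ᵀ := by
    intro c
    have : (J b * B b c * (L c)ᵀ) * (J b' * B b' c * (L c)ᵀ)ᵀ =
        J b * (B b c * ((L c)ᵀ * L c) * (B b' c)ᵀ) * (J b')ᵀ := by
      simp only [transpose_mul, transpose_transpose, Matrix.mul_assoc]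
    rw [this, hL]
  have hv : (vp A B b')ᵀ = vp A B b' := by
    have := (rt_posSemidef ((row (B b') fun a => (A a b')ᵀ)ᵀ *
      row (B b') fun a => (A a b')ᵀ)).isHermitian
    rwa [IsHermitian, conjTranspose_eq_transpose_of_trivial] at this
  calc ∑ a, (K a * A a b * (J b)ᵀ)ᵀ * (K a * A a b' * (J b')ᵀ) +
      ∑ c, (J b * B b c * (L c)ᵀ) * (J b' * B b' c * (L c)ᵀ)ᵀ
      = ∑ a, J b * ((A a b)ᵀ * ((A a b')ᵀ)ᵀ) * (J b')ᵀ +
        ∑ c, J b * (B b c * (B b' c)ᵀ) * (J b')ᵀ := by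
        rw [sum_congr rfl fun a _ => e₁ a, sum_congr rfl fun c _ => e₂ c]
    _ = J b * (row (B b) (fun a => (A a b)ᵀ) * (row (B b') (fun a => (A a b')ᵀ))ᵀ) *
        (J b')ᵀ := by
        rw [row_row, Matrix.mul_add, Matrix.add_mul, Matrix.mul_sum, Matrix.mul_sum,
          Matrix.sum_mul, Matrix.sum_mul, add_comm]
    _ = (J b * row (B b) (fun a => (A a b)ᵀ)) *
        (J b' * row (B b') (fun a => (A a b')ᵀ))ᵀ := by
        rw [transpose_mul]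
        simp only [Matrix.mul_assoc]
    _ = _ := by rw [hJ, hJ, hv]

theorem trace_gauge {N : Type} [Fintype N] {A B C : Matrix n n ℝ} {J K L : Matrix N n ℝ}
    (hA : A * (Kᵀ * K) = A) (hB : B * (Lᵀ * L) = B) (hC : C * (Jᵀ * J) = C) :
    (J * A * Kᵀ * (K * B * Lᵀ) * (L * C * Jᵀ)).trace = (A * B * C).trace := by
  have : J * A * Kᵀ * (K * B * Lᵀ) * (L * C * Jᵀ) =
      J * ((A * (Kᵀ * K)) * (B * (Lᵀ * L)) * C * Jᵀ) := by
    simp only [Matrix.mul_assoc]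
  rw [this, hA, hB, trace_mul_comm]
  have : A * B * C * Jᵀ * J = A * B * (C * (Jᵀ * J)) := by
    simp only [Matrix.mul_assoc]
  rw [this, hC]

end GaugeAux

theorem gauge (A B C : Fin 2 → Fin 2 → Matrix n n ℝ) :
    ∃ A' B' C' : Fin 2 → Fin 2 →
        Matrix ((Fin 2 × n) ⊕ (Fin 2 × n)) ((Fin 2 × n) ⊕ (Fin 2 × n)) ℝ,
      (∀ a b c, (A' a b * B' b c * C' c a).trace = (A a b * B b c * C c a).trace) ∧
      (∀ b b', ∑ a, (A' a b)ᵀ * A' a b' + ∑ c, B' b c * (B' b' c)ᵀ =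
        vp A B b * vp A B b') ∧
      (∀ c c', ∑ b, (B' b c)ᵀ * B' b c' + ∑ a, C' c a * (C' c' a)ᵀ =
        vp B C c * vp B C c') ∧
      (∀ a a', ∑ c, (C' c a)ᵀ * C' c a' + ∑ b, A' a b * (A' a' b)ᵀ =
        vp C A a * vp C A a') := by
  obtain ⟨J₁, h₁, h₁A, h₁B⟩ := GaugeAux.vertex A B
  obtain ⟨J₂, h₂, h₂B, h₂C⟩ := GaugeAux.vertex B C
  obtain ⟨J₀, h₀, h₀C, h₀A⟩ := GaugeAux.vertex C A
  refine ⟨fun a b => J₀ a * A a b * (J₁ b)ᵀ, fun b c => J₁ b * B b c * (J₂ c)ᵀ,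
    fun c a => J₂ c * C c a * (J₀ a)ᵀ, ?_, ?_, ?_, ?_⟩
  · intro a b c
    exact GaugeAux.trace_gauge (h₁A a b) (h₂B b c) (h₀C c a)
  · intro b b'
    exact GaugeAux.gram A B J₁ J₀ J₂ h₁ h₀A h₂B b b'
  · intro c c'
    exact GaugeAux.gram B C J₂ J₁ J₀ h₂ h₁B h₀C c c'
  · intro a a'
    exact GaugeAux.gram C A J₀ J₂ J₁ h₀ h₂C h₁A a a'

end P075
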