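import Vale.Agent.P075.Basic

/-!
# P075 : the key inequality
-/

namespace P075

open Matrix Finset

namespace KeyAux

variable {n : Type} [Fintype n] [DecidableEq n]

theorem psd_conj {m : Type} [Fintype m] [DecidableEq m] {A : Matrix n n ℝ} (hA : A.PosSemidef)
    (B : Matrix n m ℝ) : (Bᵀ * A * B).PosSemidef := by
  have := hA.conjTranspose_mul_mul_same B
  rwa [conjTranspose_eq_transpose_of_trivial] at this

theorem sym {A : Matrix n n ℝ} (hA : A.PosSemidef) : Aᵀ = A := by
  have := hA.isHermitian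
  rwa [IsHermitian, conjTranspose_eq_transpose_of_trivial] at this

theorem schur {z d : Matrix n n ℝ} (hz : z.PosDef) (hd : dᵀ = d)
    (h₁ : (z - d).PosSemidef) (h₂ : (z + d).PosSemidef) : (z - d * z⁻¹ * d).PosSemidef := by
  have hu : IsUnit z.det := hz.det_pos.ne'.isUnit
  have hzt : zᵀ = z := sym hz.posSemidef
  have hzit : (z⁻¹)ᵀ = z⁻¹ := by rw [transpose_nonsing_inv, hzt]
  have a₁ := psd_conj h₂ (1 - z⁻¹ * d)
  have a₂ := psd_conj h₁ (1 + z⁻¹ * d)
  have a₃ := (a₁.add a₂).smul (by norm_num : (0 : ℝ) ≤ 1 / 2)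
  have e : (1 / 2 : ℝ) • ((1 - z⁻¹ * d)ᵀ * (z + d) * (1 - z⁻¹ * d) +
      (1 + z⁻¹ * d)ᵀ * (z - d) * (1 + z⁻¹ * d)) = z - d * z⁻¹ * d := by
    have e₁ : (1 - z⁻¹ * d)ᵀ = 1 - d * z⁻¹ := by
      rw [transpose_sub, transpose_mul, hzit, hd, transpose_one]
    have e₂ : (1 + z⁻¹ * d)ᵀ = 1 + d * z⁻¹ := by
      rw [transpose_add, transpose_mul, hzit, hd, transpose_one]
    have e₃ : z * (z⁻¹ * d) = d := by
      rw [← Matrix.mul_assoc, mul_nonsing_inv z hu, Matrix.one_mul]
    have e₄ : d * z⁻¹ * z = d := by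
      rw [Matrix.mul_assoc, nonsing_inv_mul z hu, Matrix.mul_one]
    have e₅ : (1 - d * z⁻¹) * (z + d) * (1 - z⁻¹ * d) +
        (1 + d * z⁻¹) * (z - d) * (1 + z⁻¹ * d) =
        (2 : ℝ) • z + (2 : ℝ) • (d * z⁻¹ * (z * (z⁻¹ * d))) -
        (2 : ℝ) • (d * z⁻¹ * d) - (2 : ℝ) • (d * (z⁻¹ * d)) := by
      simp only [two_smul]
      noncomm_ring
    rw [e₁, e₂, e₅, e₃, Matrix.mul_assoc d]
    simp only [smul_sub, smul_add, smul_smul]
    norm_num
  rwa [e] at a₃

theorem key_pos {z d y : Matrix n n ℝ} (hz : z.PosDef) (hd : dᵀ = d)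
    (h₁ : (z - d).PosSemidef) (h₂ : (z + d).PosSemidef) (hy : y.PosSemidef)
    (h : y * y = z * z + d * d) :
    (y * y * y).trace ≤ (z * z * z).trace + 9 / 4 * (z * d * d).trace := by
  have hu : IsUnit z.det := hz.det_pos.ne'.isUnit
  have hzt : zᵀ = z := sym hz.posSemidef
  have hyt : yᵀ = y := sym hy
  have hi : (z⁻¹).PosSemidef := hz.inv.posSemidef
  have f₁ : z⁻¹ * z = 1 := nonsing_inv_mul z hu
  have f₂ : z * z⁻¹ = 1 := mul_nonsing_inv z hu
  -- first inequality
  have b₁ : 0 ≤ ((y * y - z * y)ᵀ * z⁻¹ * (y * y - z * y)).trace :=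
    (psd_conj hi _).trace_nonneg
  have e₁ : (y * y - z * y)ᵀ * z⁻¹ * (y * y - z * y) =
      y * y * z⁻¹ * (y * y) - y * y * (z⁻¹ * z) * y - y * (z * z⁻¹) * (y * y) +
        y * (z * z⁻¹) * z * y := by
    rw [transpose_sub, transpose_mul, transpose_mul, hyt, hzt]
    noncomm_ring
  rw [e₁, f₁, f₂, Matrix.mul_one, Matrix.mul_one, trace_add, trace_sub, trace_sub] at b₁
  have t₁ : (y * z * y).trace = (y * y * z).trace := by
    rw [trace_mul_comm (y * z) y, Matrix.mul_assoc]
  have t₂ : (y * (y * y)).trace = (y * y * y).trace := by rw [Matrix.mul_assoc]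
  have b₂ := young hy hz.posSemidef
  -- the quartic term
  have t₃ : (y * y * z⁻¹ * (y * y)).trace = (z * z * z).trace + 2 * (z * d * d).trace +
      (d * (d * z⁻¹ * d) * d).trace := by
    rw [h]
    have e₂ : (z * z + d * d) * z⁻¹ * (z * z + d * d) =
        z * (z * z⁻¹) * z * z + z * (z * z⁻¹) * d * d + d * d * (z⁻¹ * z) * z +
          d * (d * z⁻¹ * d) * d := by
      noncomm_ring
    rw [e₂, f₁, f₂, Matrix.mul_one, Matrix.mul_one, trace_add, trace_add, trace_add]
    have t₄ : (d * d * z).trace = (z * d * d).trace := by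
      rw [trace_mul_comm, Matrix.mul_assoc]
    rw [t₄]
    ring
  have b₃ : (d * (d * z⁻¹ * d) * d).trace ≤ (z * d * d).trace := by
    have := (psd_conj (schur hz hd h₁ h₂) d).trace_nonneg
    rw [hd] at this
    have e₃ : d * (z - d * z⁻¹ * d) * d = d * z * d - d * (d * z⁻¹ * d) * d := by
      noncomm_ring
    rw [e₃, trace_sub] at this
    have t₅ : (d * z * d).trace = (z * d * d).trace := by
      rw [Matrix.mul_assoc, trace_mul_comm]
    linarith
  linarith

theorem limit {a b c e f : ℝ} (h : ∀ t : ℝ, 0 < t → a ≤ b + c * t + e * t ^ 2 + f * t ^ 3) :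
    a ≤ b := by
  have hcont : Continuous (fun t : ℝ => b + c * t + e * t ^ 2 + f * t ^ 3) := by fun_prop
  have hc : Filter.Tendsto (fun t : ℝ => b + c * t + e * t ^ 2 + f * t ^ 3)
      (nhdsWithin 0 (Set.Ioi 0)) (nhds (b + c * 0 + e * 0 ^ 2 + f * 0 ^ 3)) :=
    (hcont.tendsto 0).mono_left nhdsWithin_le_nhds
  have h' : ∀ᶠ t : ℝ in nhdsWithin 0 (Set.Ioi 0), a ≤ b + c * t + e * t ^ 2 + f * t ^ 3 := by
    filter_upwards [self_mem_nhdsWithin] with t ht
    exact h t ht
  have h'' := ge_of_tendsto hc h'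
  simpa using h''

theorem key_psd {x d y : Matrix n n ℝ} (hx : x.PosSemidef) (hd : dᵀ = d)
    (h₁ : (x - d).PosSemidef) (h₂ : (x + d).PosSemidef) (hy : y.PosSemidef)
    (h : y * y = x * x + d * d) :
    (y * y * y).trace ≤ (x * x * x).trace + 9 / 4 * (x * d * d).trace := by
  apply limit (c := 3 * (x * x).trace + 9 / 4 * (d * d).trace) (e := 3 * x.trace)
    (f := (1 : Matrix n n ℝ).trace)
  intro t ht
  have ht1 : (t • (1 : Matrix n n ℝ)).PosDef := PosDef.one.smul ht
  have hz : (x + t • (1 : Matrix n n ℝ)).PosDef := PosDef.posSemidef_add hx ht1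
  set z := x + t • (1 : Matrix n n ℝ) with hzdef
  have hdd : (d * d).PosSemidef := by
    have := posSemidef_conjTranspose_mul_self d
    rwa [conjTranspose_eq_transpose_of_trivial, hd] at this
  have hzz : (z * z).PosSemidef := by
    have := posSemidef_conjTranspose_mul_self z
    rwa [conjTranspose_eq_transpose_of_trivial, sym hz.posSemidef] at this
  have hs : (z * z + d * d).PosSemidef := hzz.add hdd
  have key := key_pos (y := rt (z * z + d * d)) hz hd
    (by
      have : z - d = (x - d) + t • (1 : Matrix n n ℝ) := by rw [hzdef]; abel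
      rw [this]
      exact h₁.add ht1.posSemidef)
    (by
      have : z + d = (x + d) + t • (1 : Matrix n n ℝ) := by rw [hzdef]; abel
      rw [this]
      exact h₂.add ht1.posSemidef) (rt_posSemidef _) (rt_mul_rt hs)
  have hyy : (y * y).PosSemidef := by
    have := posSemidef_conjTranspose_mul_self y
    rwa [conjTranspose_eq_transpose_of_trivial, sym hy] at this
  have hm : (y * y * y).trace ≤
      (rt (z * z + d * d) * rt (z * z + d * d) * rt (z * z + d * d)).trace := by
    rw [← phi_sq hy]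
    refine phi_mono hyy ?_
    have : z * z + d * d - y * y = (2 * t) • x + (t * t) • (1 : Matrix n n ℝ) := by
      rw [h, hzdef]
      simp only [Matrix.add_mul, Matrix.mul_add, Matrix.smul_mul, Matrix.mul_smul, Matrix.one_mul,
        Matrix.mul_one]
      module
    rw [this]
    exact (hx.smul (by positivity)).add (PosSemidef.one.smul (by positivity))
  refine (hm.trans key).trans (le_of_eq ?_)
  have e₁ : (z * z * z).trace = (x * x * x).trace + 3 * (x * x).trace * t + 3 * x.trace * t ^ 2 +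
      (1 : Matrix n n ℝ).trace * t ^ 3 := by
    rw [hzdef]
    simp only [Matrix.add_mul, Matrix.mul_add, Matrix.smul_mul, Matrix.mul_smul, Matrix.one_mul,
        Matrix.mul_one, trace_add, trace_smul, smul_eq_mul]
    ring
  have e₂ : (z * d * d).trace = (x * d * d).trace + (d * d).trace * t := by
    rw [hzdef]
    simp only [Matrix.add_mul, Matrix.smul_mul, Matrix.one_mul, trace_add, trace_smul,
      smul_eq_mul]
    ring
  rw [e₁, e₂]
  ring

end KeyAux

variable {n : Type} [Fintype n] [DecidableEq n]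

theorem key {p q y : Matrix n n ℝ} (hp : p.PosSemidef) (hq : q.PosSemidef) (hy : y.PosSemidef)
    (h : (2 : ℝ) • (y * y) = p * p + q * q) :
    2 * (y * y * y).trace + 3 / 16 * ((p + q) * (p - q) * (p - q)).trace ≤
      (p * p * p).trace + (q * q * q).trace := by
  obtain ⟨x, hx⟩ : ∃ x : Matrix n n ℝ, x = (1 / 2 : ℝ) • (p + q) := ⟨_, rfl⟩
  obtain ⟨d, hd⟩ : ∃ d : Matrix n n ℝ, d = (1 / 2 : ℝ) • (p - q) := ⟨_, rfl⟩
  have ep : p = x + d := by
    rw [hx, hd, ← smul_add]
    have : p + q + (p - q) = (2 : ℝ) • p := by rw [two_smul]; abel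
    rw [this, smul_smul]; norm_num
  have eq : q = x - d := by
    rw [hx, hd, ← smul_sub]
    have : p + q - (p - q) = (2 : ℝ) • q := by rw [two_smul]; abel
    rw [this, smul_smul]; norm_num
  have hxp : x.PosSemidef := by
    rw [hx]; exact (hp.add hq).smul (by norm_num)
  have hdt : dᵀ = d := by
    rw [hd, transpose_smul, transpose_sub, KeyAux.sym hp, KeyAux.sym hq]
  have hyy : y * y = x * x + d * d := by
    have e : p * p + q * q = (2 : ℝ) • (x * x + d * d) := by
      rw [ep, eq, two_smul]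
      noncomm_ring
    rw [e] at h
    have := congrArg (fun M => (1 / 2 : ℝ) • M) h
    simp only [smul_smul] at this
    norm_num at this
    exact this
  have k := KeyAux.key_psd hxp hdt (by rw [← eq]; exact hq) (by rw [← ep]; exact hp) hy hyy
  have c₁ : (d * x * d).trace = (x * d * d).trace := by
    rw [Matrix.mul_assoc, trace_mul_comm]
  have c₂ : (d * d * x).trace = (x * d * d).trace := by
    rw [trace_mul_comm, Matrix.mul_assoc]
  have e₁ : (p * p * p).trace + (q * q * q).trace = 2 * (x * x * x).trace +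
      6 * (x * d * d).trace := by
    have : p * p * p + q * q * q = (2 : ℝ) • (x * x * x) + (2 : ℝ) • (x * d * d) +
        (2 : ℝ) • (d * x * d) + (2 : ℝ) • (d * d * x) := by
      rw [ep, eq]
      simp only [two_smul]
      noncomm_ring
    rw [← trace_add, this, trace_add, trace_add, trace_add, trace_smul, trace_smul, trace_smul,
      trace_smul, c₁, c₂]
    simp only [smul_eq_mul]
    ring
  have e₂ : ((p + q) * (p - q) * (p - q)).trace = 8 * (x * d * d).trace := by
    have a₁ : p + q = (2 : ℝ) • x := by rw [ep, eq, two_smul]; abel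
    have a₂ : p - q = (2 : ℝ) • d := by rw [ep, eq, two_smul]; abel
    rw [a₁, a₂]
    simp only [Matrix.smul_mul, Matrix.mul_smul, trace_smul, smul_eq_mul]
    ring
  rw [e₁, e₂]
  linarith

end P075
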