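import Vale.Agent.P075.Defs

/-!
# P075 : module M1, the form `L` is an average of discrete forms
-/

namespace P075

open MeasureTheory Finset

namespace LeqAux

/-- the indicator of a cell -/
noncomputable def cell (δ : ℝ) (u : ℕ) (x : ℝ) : ℝ :=
  (Set.Ico (δ * u) (δ * (u + 1))).indicator (fun _ => (1 : ℝ)) x

lemma ind_add {a b d : ℝ} (h1 : a ≤ b) (h2 : b ≤ d) (x : ℝ) :
    (Set.Ico a b).indicator (fun _ => (1 : ℝ)) x + (Set.Ico b d).indicator (fun _ => (1 : ℝ)) x =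
      (Set.Ico a d).indicator (fun _ => (1 : ℝ)) x := by
  simp only [Set.indicator_apply, Set.mem_Ico]
  by_cases hxa : a ≤ x
  · by_cases hxb : x < b
    · rw [if_pos ⟨hxa, hxb⟩, if_neg (fun h => absurd h.1 (not_le.mpr hxb)),
        if_pos ⟨hxa, hxb.trans_le h2⟩, add_zero]
    · rw [if_neg (fun h => hxb h.2), zero_add]
      exact if_congr ⟨fun h => ⟨hxa, h.2⟩, fun h => ⟨not_lt.mp hxb, h.2⟩⟩ rfl rfl
  · rw [if_neg (fun h => hxa h.1), if_neg (fun h => hxa (h1.trans h.1)),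
      if_neg (fun h => hxa h.1), add_zero]

lemma sum_cell {δ : ℝ} (hδ : 0 < δ) (c : ℕ) (x : ℝ) : ∀ N : ℕ,
    ∑ j ∈ range N, cell δ (c + j) x =
      (Set.Ico (δ * c) (δ * (c + N))).indicator (fun _ => (1 : ℝ)) x
  | 0 => by simp
  | N + 1 => by
    rw [sum_range_succ, sum_cell hδ c x N, cell]
    have h1 : δ * (c : ℝ) ≤ δ * ((c : ℝ) + N) := by
      apply mul_le_mul_of_nonneg_left _ hδ.le
      have : (0 : ℝ) ≤ N := Nat.cast_nonneg N
      linarith
    have h2 : δ * ((c : ℝ) + N) ≤ δ * ((c : ℝ) + N + 1) := by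
      apply mul_le_mul_of_nonneg_left _ hδ.le
      linarith
    push_cast
    rw [ind_add h1 h2]
    simp only [add_assoc]

/-- the Haar function in terms of cells -/
lemma haar_eq (m : ℤ) (k n : ℕ) (x : ℝ) :
    haar (m + (k + 1)) n x = ∑ a : Fin 2, sg a *
      ∑ j ∈ range (2 ^ k), cell ((2 : ℝ) ^ m) (2 ^ (k + 1) * n + 2 ^ k * a + j) x := by
  have hδ : (0 : ℝ) < (2 : ℝ) ^ m := by positivity
  have e : (2 : ℝ) ^ (m + ((k : ℤ) + 1)) = (2 : ℝ) ^ m * 2 ^ (k + 1) := by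
    rw [zpow_add₀ (two_ne_zero)]
    norm_cast
  rw [Fin.sum_univ_two, sum_cell hδ, sum_cell hδ, haar, e]
  simp only [sg, Fin.isValue, if_true, one_mul, one_ne_zero, if_false, neg_mul,
    Fin.val_zero, Fin.val_one, mul_zero, add_zero, mul_one]
  push_cast
  have e1 : (2 : ℝ) ^ m * 2 ^ (k + 1) * n = 2 ^ m * (2 ^ (k + 1) * n) := by ring
  have e2 : (2 : ℝ) ^ m * 2 ^ (k + 1) * (n + 1 / 2) = 2 ^ m * (2 ^ (k + 1) * n + 2 ^ k) := by
    ring
  have e3 : (2 : ℝ) ^ m * 2 ^ (k + 1) * (n + 1) = 2 ^ m * (2 ^ (k + 1) * n + 2 ^ k + 2 ^ k) := by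
    ring
  rw [← sub_eq_add_neg, e1, e2, e3]

/-- the change of variables -/
lemma cov {δ : ℝ} (hδ : 0 < δ) (u v w : ℕ) (f : ℝ × ℝ × ℝ → ℝ) :
    ∫ X : ℝ × ℝ × ℝ, f X * (cell δ u X.1 * cell δ v X.2.1 * cell δ w X.2.2) =
      δ ^ 3 * ∫ t in Set.Ico (0 : ℝ) 1 ×ˢ Set.Ico (0 : ℝ) 1 ×ˢ Set.Ico (0 : ℝ) 1,
        f (δ * (u + t.1), δ * (v + t.2.1), δ * (w + t.2.2)) := by
  have i1 : (volume : Measure (ℝ × ℝ)).IsAddHaarMeasure :=
    inferInstanceAs ((volume : Measure ℝ).prod (volume : Measure ℝ)).IsAddHaarMeasure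
  have i2 : (volume : Measure (ℝ × ℝ × ℝ)).IsAddHaarMeasure :=
    inferInstanceAs ((volume : Measure ℝ).prod (volume : Measure (ℝ × ℝ))).IsAddHaarMeasure
  have h1 := MeasureTheory.Measure.integral_comp_smul
    (μ := (volume : Measure (ℝ × ℝ × ℝ)))
    (fun X : ℝ × ℝ × ℝ => f X * (cell δ u X.1 * cell δ v X.2.1 * cell δ w X.2.2)) δ
  have h2 := integral_add_left_eq_self (μ := (volume : Measure (ℝ × ℝ × ℝ)))
    (fun t : ℝ × ℝ × ℝ => (fun X : ℝ × ℝ × ℝ =>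
      f X * (cell δ u X.1 * cell δ v X.2.1 * cell δ w X.2.2)) (δ • t)) ((u : ℝ), (v : ℝ), (w : ℝ))
  have hfr : Module.finrank ℝ (ℝ × ℝ × ℝ) = 3 := by simp
  rw [h1, hfr, abs_of_pos (by positivity), smul_eq_mul] at h2
  have h3 : ∫ X : ℝ × ℝ × ℝ, f X * (cell δ u X.1 * cell δ v X.2.1 * cell δ w X.2.2) =
      δ ^ 3 * ((δ ^ 3)⁻¹ *
        ∫ X : ℝ × ℝ × ℝ, f X * (cell δ u X.1 * cell δ v X.2.1 * cell δ w X.2.2)) := by
    rw [← mul_assoc, mul_inv_cancel₀ (by positivity), one_mul]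
  rw [h3, ← h2]
  congr 1
  rw [← integral_indicator
    (measurableSet_Ico.prod (measurableSet_Ico.prod measurableSet_Ico))]
  apply integral_congr_ae
  refine Filter.Eventually.of_forall fun t => ?_
  have hc : ∀ (q : ℕ) (s : ℝ), cell δ q (δ * ((q : ℝ) + s)) =
      (Set.Ico (0 : ℝ) 1).indicator (fun _ => (1 : ℝ)) s := fun q s => by
    simp only [cell, Set.indicator_apply, Set.mem_Ico]
    refine if_congr ⟨fun h => ⟨?_, ?_⟩, fun h => ⟨?_, ?_⟩⟩ rfl rfl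
    · have := le_of_mul_le_mul_left h.1 hδ
      linarith
    · have := lt_of_mul_lt_mul_left h.2 hδ.le
      linarith
    · exact mul_le_mul_of_nonneg_left (by linarith [h.1]) hδ.le
    · exact mul_lt_mul_of_pos_left (by linarith [h.2]) hδ
  simp only [Prod.fst_add, Prod.snd_add, smul_eq_mul, Prod.smul_fst,
    Prod.smul_snd, hc]
  by_cases h : t ∈ Set.Ico (0 : ℝ) 1 ×ˢ Set.Ico (0 : ℝ) 1 ×ˢ Set.Ico (0 : ℝ) 1
  · rw [Set.indicator_of_mem h]
    obtain ⟨ha, hb, hc'⟩ := h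
    rw [Set.indicator_of_mem ha, Set.indicator_of_mem hb, Set.indicator_of_mem hc', mul_one,
      mul_one, mul_one]
    rfl
  · rw [Set.indicator_of_notMem h]
    by_cases ha : t.1 ∈ Set.Ico (0 : ℝ) 1
    · by_cases hb : t.2.1 ∈ Set.Ico (0 : ℝ) 1
      · have hc' : t.2.2 ∉ Set.Ico (0 : ℝ) 1 := fun hc' => h ⟨ha, hb, hc'⟩
        rw [Set.indicator_of_notMem hc', mul_zero, mul_zero]
      · rw [Set.indicator_of_notMem hb, mul_zero, zero_mul, mul_zero]
    · rw [Set.indicator_of_notMem ha, zero_mul, zero_mul, mul_zero]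

lemma integrable_cell (δ : ℝ) (u v w : ℕ) {f : ℝ × ℝ × ℝ → ℝ}
    (hf : Measurable f) {K : ℝ} (hK : ∀ x, |f x| ≤ K) :
    Integrable (fun X : ℝ × ℝ × ℝ => f X * (cell δ u X.1 * cell δ v X.2.1 * cell δ w X.2.2)) := by
  have hm : ∀ q : ℕ, Measurable (cell δ q) := fun q =>
    measurable_const.indicator measurableSet_Ico
  have hbox : MeasurableSet (Set.Ico (δ * u) (δ * (u + 1)) ×ˢ Set.Ico (δ * v) (δ * (v + 1)) ×ˢ
      Set.Ico (δ * w) (δ * (w + 1))) :=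
    measurableSet_Ico.prod (measurableSet_Ico.prod measurableSet_Ico)
  have e : (fun X : ℝ × ℝ × ℝ => f X * (cell δ u X.1 * cell δ v X.2.1 * cell δ w X.2.2)) =
      (Set.Ico (δ * u) (δ * (u + 1)) ×ˢ Set.Ico (δ * v) (δ * (v + 1)) ×ˢ
        Set.Ico (δ * w) (δ * (w + 1))).indicator f := by
    funext X
    by_cases h : X ∈ Set.Ico (δ * u) (δ * (u + 1)) ×ˢ Set.Ico (δ * v) (δ * (v + 1)) ×ˢ
      Set.Ico (δ * w) (δ * (w + 1))
    · rw [Set.indicator_of_mem h]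
      obtain ⟨ha, hb, hc⟩ := h
      rw [cell, cell, cell, Set.indicator_of_mem ha, Set.indicator_of_mem hb,
        Set.indicator_of_mem hc, mul_one, mul_one, mul_one]
    · rw [Set.indicator_of_notMem h, cell, cell, cell]
      by_cases ha : X.1 ∈ Set.Ico (δ * u) (δ * (u + 1))
      · by_cases hb : X.2.1 ∈ Set.Ico (δ * v) (δ * (v + 1))
        · have hc : X.2.2 ∉ Set.Ico (δ * w) (δ * (w + 1)) := fun hc => h ⟨ha, hb, hc⟩
          rw [Set.indicator_of_notMem hc, mul_zero, mul_zero]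
        · rw [Set.indicator_of_notMem hb, mul_zero, zero_mul, mul_zero]
      · rw [Set.indicator_of_notMem ha, zero_mul, zero_mul, mul_zero]
  rw [e, integrable_indicator_iff hbox]
  refine Measure.integrableOn_of_bounded (M := K) ?_ hf.aestronglyMeasurable
    (Filter.Eventually.of_forall fun x => by rw [Real.norm_eq_abs]; exact hK x)
  rw [Measure.volume_eq_prod, Measure.prod_prod, Measure.volume_eq_prod, Measure.prod_prod,
    Real.volume_Ico, Real.volume_Ico, Real.volume_Ico]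
  exact ENNReal.mul_ne_top ENNReal.ofReal_ne_top
    (ENNReal.mul_ne_top ENNReal.ofReal_ne_top ENNReal.ofReal_ne_top)

lemma haar_zero {k : ℤ} {n : ℕ} {x : ℝ} (h : x ∉ I k n) : haar k n x = 0 := by
  have hp : (0 : ℝ) < (2 : ℝ) ^ k := by positivity
  rw [haar, Set.indicator_of_notMem, Set.indicator_of_notMem, sub_zero]
  · intro hx
    exact h ⟨(mul_le_mul_of_nonneg_left (by linarith) hp.le).trans hx.1, hx.2⟩
  · intro hx
    exact h ⟨hx.1, hx.2.trans_le (mul_le_mul_of_nonneg_left (by linarith) hp.le)⟩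

lemma prod3 (N : ℕ) (S T U : Fin 2 → ℕ → ℝ) (F : ℝ) :
    F * ((∑ a : Fin 2, sg a * ∑ j ∈ range N, S a j) * (∑ b : Fin 2, sg b * ∑ j ∈ range N, T b j) *
      (∑ c : Fin 2, sg c * ∑ j ∈ range N, U c j)) =
    ∑ a : Fin 2, ∑ b : Fin 2, ∑ c : Fin 2, sg a * sg b * sg c *
      ∑ x ∈ range N, ∑ y ∈ range N, ∑ z ∈ range N, F * (S a x * T b y * U c z) := by
  have e : ∀ a b c : Fin 2, ∑ x ∈ range N, ∑ y ∈ range N, ∑ z ∈ range N,
      F * (S a x * T b y * U c z) =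
      F * ((∑ j ∈ range N, S a j) * (∑ j ∈ range N, T b j) * (∑ j ∈ range N, U c j)) := by
    intro a b c
    rw [Finset.sum_mul_sum, Finset.sum_mul, Finset.mul_sum]
    refine sum_congr rfl fun x _ => ?_
    rw [Finset.sum_mul, Finset.mul_sum]
    refine sum_congr rfl fun y _ => ?_
    rw [Finset.mul_sum, Finset.mul_sum]
  simp only [e, Fin.sum_univ_two]
  ring

/-- interchange of the integral and of the sums -/
lemma swap {T : Type} [MeasurableSpace T] (μ : Measure T) (N : ℕ)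
    (h : Fin 2 → Fin 2 → Fin 2 → ℕ → ℕ → ℕ → T → ℝ)
    (hh : ∀ a b c x y z, Integrable (h a b c x y z) μ) :
    ∫ X, (∑ a : Fin 2, ∑ b : Fin 2, ∑ c : Fin 2, sg a * sg b * sg c *
      ∑ x ∈ range N, ∑ y ∈ range N, ∑ z ∈ range N, h a b c x y z X) ∂μ =
    ∑ a : Fin 2, ∑ b : Fin 2, ∑ c : Fin 2, sg a * sg b * sg c *
      ∑ x ∈ range N, ∑ y ∈ range N, ∑ z ∈ range N, ∫ X, h a b c x y z X ∂μ := by
  have i1 : ∀ a b c x y, Integrable (fun X => ∑ z ∈ range N, h a b c x y z X) μ :=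
    fun a b c x y => integrable_finsetSum _ fun z _ => hh a b c x y z
  have i2 : ∀ a b c x, Integrable (fun X => ∑ y ∈ range N, ∑ z ∈ range N, h a b c x y z X) μ :=
    fun a b c x => integrable_finsetSum _ fun y _ => i1 a b c x y
  have i3 : ∀ a b c, Integrable (fun X => ∑ x ∈ range N, ∑ y ∈ range N, ∑ z ∈ range N,
      h a b c x y z X) μ :=
    fun a b c => integrable_finsetSum _ fun x _ => i2 a b c x
  have i4 : ∀ a b c : Fin 2, Integrable (fun X => sg a * sg b * sg c *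
      ∑ x ∈ range N, ∑ y ∈ range N, ∑ z ∈ range N, h a b c x y z X) μ :=
    fun a b c => (i3 a b c).const_mul _
  have i5 : ∀ a b : Fin 2, Integrable (fun X => ∑ c : Fin 2, sg a * sg b * sg c *
      ∑ x ∈ range N, ∑ y ∈ range N, ∑ z ∈ range N, h a b c x y z X) μ :=
    fun a b => integrable_finsetSum _ fun c _ => i4 a b c
  rw [integral_finsetSum _ fun a _ => integrable_finsetSum _ fun b _ => i5 a b]
  refine sum_congr rfl fun a _ => ?_
  rw [integral_finsetSum _ fun b _ => i5 a b]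
  refine sum_congr rfl fun b _ => ?_
  rw [integral_finsetSum _ fun c _ => i4 a b c]
  refine sum_congr rfl fun c _ => ?_
  rw [integral_const_mul, integral_finsetSum _ fun x _ => i2 a b c x]
  congr 1
  refine sum_congr rfl fun x _ => ?_
  rw [integral_finsetSum _ fun y _ => i1 a b c x y]
  refine sum_congr rfl fun y _ => ?_
  rw [integral_finsetSum _ fun z _ => hh a b c x y z]

end LeqAux

open LeqAux in
/-- the form `L` is an average of discrete forms -/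
theorem L_eq (m : ℤ) (k : ℕ) (n : ℕ × ℕ × ℕ) {F₀ F₁ F₂ : ℝ × ℝ → ℝ} (h₀ : Measurable F₀)
    (h₁ : Measurable F₁) (h₂ : Measurable F₂) {K : ℝ} (b₀ : ∀ x, |F₀ x| ≤ K)
    (b₁ : ∀ x, |F₁ x| ≤ K) (b₂ : ∀ x, |F₂ x| ≤ K) :
    L (m + (k + 1)) n F₀ F₁ F₂ = ((2 : ℝ) ^ m) ^ 2 *
      ∫ t in Set.Ico (0 : ℝ) 1 ×ˢ Set.Ico (0 : ℝ) 1 ×ˢ Set.Ico (0 : ℝ) 1,
        Ld k (fun p q => F₀ ((2 : ℝ) ^ m * (p + t.1), (2 : ℝ) ^ m * (q + t.2.1)))
          (fun p q => F₁ ((2 : ℝ) ^ m * (p + t.2.1), (2 : ℝ) ^ m * (q + t.2.2)))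
          (fun p q => F₂ ((2 : ℝ) ^ m * (p + t.2.2), (2 : ℝ) ^ m * (q + t.1)))
          n.1 n.2.1 n.2.2 := by
  have hδ : (0 : ℝ) < (2 : ℝ) ^ m := by positivity
  -- the product of the three functions
  set G : ℝ × ℝ × ℝ → ℝ := fun X => F₀ (X.1, X.2.1) * F₁ (X.2.1, X.2.2) * F₂ (X.2.2, X.1) with hG
  have mG : Measurable G :=
    ((h₀.comp (measurable_fst.prodMk (measurable_fst.comp measurable_snd))).mul
      (h₁.comp ((measurable_fst.comp measurable_snd).prodMk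
        (measurable_snd.comp measurable_snd)))).mul
      (h₂.comp ((measurable_snd.comp measurable_snd).prodMk measurable_fst))
  have K0 : 0 ≤ K := (abs_nonneg _).trans (b₀ 0)
  have bG : ∀ X, |G X| ≤ K * K * K := fun X => by
    rw [hG]
    simp only [abs_mul]
    exact mul_le_mul (mul_le_mul (b₀ _) (b₁ _) (abs_nonneg _) K0) (b₂ _) (abs_nonneg _)
      (mul_nonneg K0 K0)
  have s1 : ∫ X in I (m + (k + 1)) n.1 ×ˢ I (m + (k + 1)) n.2.1 ×ˢ I (m + (k + 1)) n.2.2,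
      F₀ (X.1, X.2.1) * F₁ (X.2.1, X.2.2) * F₂ (X.2.2, X.1) *
        (haar (m + (k + 1)) n.1 X.1 * haar (m + (k + 1)) n.2.1 X.2.1 *
          haar (m + (k + 1)) n.2.2 X.2.2) =
      ∑ a : Fin 2, ∑ b : Fin 2, ∑ c : Fin 2, sg a * sg b * sg c *
      ∑ x ∈ range (2 ^ k), ∑ y ∈ range (2 ^ k), ∑ z ∈ range (2 ^ k),
        ∫ X : ℝ × ℝ × ℝ, G X * (cell ((2 : ℝ) ^ m) (2 ^ (k + 1) * n.1 + 2 ^ k * a + x) X.1 *
          cell ((2 : ℝ) ^ m) (2 ^ (k + 1) * n.2.1 + 2 ^ k * b + y) X.2.1 *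
          cell ((2 : ℝ) ^ m) (2 ^ (k + 1) * n.2.2 + 2 ^ k * c + z) X.2.2) := by
    rw [setIntegral_eq_integral_of_forall_compl_eq_zero]
    · rw [← swap _ _ _ fun a b c x y z => integrable_cell _ _ _ _ mG bG]
      refine integral_congr_ae (Filter.Eventually.of_forall fun X => ?_)
      simp only [haar_eq]
      exact prod3 _ _ _ _ _
    · intro X hX
      by_cases ha : X.1 ∈ I (m + (k + 1)) n.1
      · by_cases hb : X.2.1 ∈ I (m + (k + 1)) n.2.1
        · have hc : X.2.2 ∉ I (m + (k + 1)) n.2.2 := fun hc => hX ⟨ha, hb, hc⟩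
          rw [haar_zero hc, mul_zero, mul_zero]
        · rw [haar_zero hb, mul_zero, zero_mul, mul_zero]
      · rw [haar_zero ha, zero_mul, zero_mul, mul_zero]
  rw [L, s1]
  simp only [cov hδ]
  simp only [Ld]
  rw [integral_div, swap]
  · simp only [Fin.sum_univ_two, ← Finset.mul_sum]
    have e : (2 : ℝ) ^ (-(m + ((k : ℤ) + 1))) = ((2 : ℝ) ^ m)⁻¹ * (2 ^ (k + 1))⁻¹ := by
      rw [zpow_neg, zpow_add₀ (two_ne_zero), mul_inv]
      norm_cast
    rw [e]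
    push_cast
    field_simp
    ring
  · intro a b c x y z
    have hm : Measurable fun t : ℝ × ℝ × ℝ =>
        (((2 : ℝ) ^ m * (((2 ^ (k + 1) * n.1 + 2 ^ k * (a : ℕ) + x : ℕ) : ℝ) + t.1)),
          ((2 : ℝ) ^ m * (((2 ^ (k + 1) * n.2.1 + 2 ^ k * (b : ℕ) + y : ℕ) : ℝ) + t.2.1)),
          ((2 : ℝ) ^ m * (((2 ^ (k + 1) * n.2.2 + 2 ^ k * (c : ℕ) + z : ℕ) : ℝ) + t.2.2))) :=
      (measurable_const.mul (measurable_const.add measurable_fst)).prodMk
        ((measurable_const.mul (measurable_const.add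
          (measurable_fst.comp measurable_snd))).prodMk
        (measurable_const.mul (measurable_const.add (measurable_snd.comp measurable_snd))))
    refine Measure.integrableOn_of_bounded (M := K * K * K) ?_
      (mG.comp hm).aestronglyMeasurable
      (Filter.Eventually.of_forall fun t => (Real.norm_eq_abs _).trans_le
        (bG (((2 : ℝ) ^ m * (((2 ^ (k + 1) * n.1 + 2 ^ k * (a : ℕ) + x : ℕ) : ℝ) + t.1)),
          ((2 : ℝ) ^ m * (((2 ^ (k + 1) * n.2.1 + 2 ^ k * (b : ℕ) + y : ℕ) : ℝ) + t.2.1)),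
          ((2 : ℝ) ^ m * (((2 ^ (k + 1) * n.2.2 + 2 ^ k * (c : ℕ) + z : ℕ) : ℝ) + t.2.2)))))
    rw [Measure.volume_eq_prod, Measure.prod_prod, Measure.volume_eq_prod, Measure.prod_prod,
      Real.volume_Ico]
    exact ENNReal.mul_ne_top ENNReal.ofReal_ne_top
      (ENNReal.mul_ne_top ENNReal.ofReal_ne_top ENNReal.ofReal_ne_top)

end P075
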