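import Vale.Agent.P075.Polar
import Vale.Agent.P075.Key

/-!
# P075 : the inequality at a vertex (module E)
-/

namespace P075

open Matrix Finset

variable {m n : Type} [Fintype m] [DecidableEq m] [Fintype n] [DecidableEq n]

namespace VertexAux

/-- `p p + q q` is positive semidefinite -/
theorem psd_sq {p : Matrix n n ℝ} (hp : p.PosSemidef) : (p * p).PosSemidef := by
  have h := Matrix.posSemidef_conjTranspose_mul_self p
  rwa [hp.isHermitian.eq] at h

/-- the strong form of the key inequality -/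
theorem half {p q : Matrix n n ℝ} (hp : p.PosSemidef) (hq : q.PosSemidef) :
    phi (p * p + q * q) + Real.sqrt 2 * (3 / 16) * ((p + q) * (p - q) * (p - q)).trace ≤
      Real.sqrt 2 * ((p * p * p).trace + (q * q * q).trace) := by
  have hX : (p * p + q * q).PosSemidef := (psd_sq hp).add (psd_sq hq)
  have hX2 : ((1 / 2 : ℝ) • (p * p + q * q)).PosSemidef := hX.smul (by norm_num)
  have hy := rt_posSemidef ((1 / 2 : ℝ) • (p * p + q * q))
  have hyy := rt_mul_rt hX2
  set y := rt ((1 / 2 : ℝ) • (p * p + q * q)) with hydef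
  have h2 : (2 : ℝ) • (y * y) = p * p + q * q := by
    rw [hyy, smul_smul]; norm_num
  have hk := key hp hq hy h2
  have hs : Real.sqrt 2 * Real.sqrt 2 = 2 := Real.mul_self_sqrt (by norm_num)
  have hs0 : 0 ≤ Real.sqrt 2 := Real.sqrt_nonneg 2
  have h3 : phi (p * p + q * q) = Real.sqrt 2 ^ 3 * (y * y * y).trace := by
    rw [← h2, ← hs, phi_smul (psd_sq hy) hs0, phi_sq hy]
    simp only [hs]
  rw [h3]
  have h4 : Real.sqrt 2 ^ 3 = Real.sqrt 2 * 2 := by
    rw [pow_succ, pow_two, hs]; ring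
  rw [h4]
  nlinarith [mul_le_mul_of_nonneg_left hk hs0]

/-- the defect is nonnegative -/
theorem defect_nonneg {p q : Matrix n n ℝ} (hp : p.PosSemidef) (hq : q.PosSemidef) :
    0 ≤ ((p + q) * (p - q) * (p - q)).trace := by
  rw [Matrix.mul_assoc]
  refine trace_mul_nonneg (hp.add hq) ?_
  have h := Matrix.posSemidef_conjTranspose_mul_self (p - q)
  have h' : (p - q)ᴴ = p - q := by
    rw [Matrix.conjTranspose_sub, hp.isHermitian.eq, hq.isHermitian.eq]
  rwa [h'] at h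

/-- the convexity of `phi` -/
theorem phi_add_le {X Y : Matrix n n ℝ} (hX : X.PosSemidef) (hY : Y.PosSemidef) :
    phi (X + Y) ≤ Real.sqrt 2 * (phi X + phi Y) := by
  have hx := rt_posSemidef X
  have hy := rt_posSemidef Y
  have h := half hx hy
  have h0 := defect_nonneg hx hy
  rw [rt_mul_rt hX, rt_mul_rt hY] at h
  have h1 : phi X = (X * rt X).trace := by
    unfold phi; rw [rt_mul_rt hX]
  have h2 : phi Y = (Y * rt Y).trace := by
    unfold phi; rw [rt_mul_rt hY]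
  rw [← h1, ← h2] at h
  have hs0 : 0 ≤ Real.sqrt 2 := Real.sqrt_nonneg 2
  nlinarith [mul_nonneg hs0 h0]

/-- all the rows -/
def Ro (A B : Fin 2 → Fin 2 → Matrix n n ℝ) :
    Matrix (Fin 2 × n) ((Fin 2 × n) ⊕ (Fin 2 × n)) ℝ :=
  Matrix.of fun i => row (B i.1) (fun a => (A a i.1)ᵀ) i.2

theorem big_eq (A B : Fin 2 → Fin 2 → Matrix n n ℝ) :
    (big A)ᵀ * big A + big B * (big B)ᵀ = Ro A B * (Ro A B)ᵀ := by
  ext i j
  simp only [Matrix.add_apply, Matrix.mul_apply, Matrix.transpose_apply, Fintype.sum_sum_type,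
    Ro, row, big, Matrix.of_apply, Sum.elim_inl, Sum.elim_inr]
  rw [add_comm]

theorem Ro_tr (A B : Fin 2 → Fin 2 → Matrix n n ℝ) :
    (Ro A B)ᵀ * Ro A B =
      (row (B 0) fun a => (A a 0)ᵀ)ᵀ * (row (B 0) fun a => (A a 0)ᵀ) +
        (row (B 1) fun a => (A a 1)ᵀ)ᵀ * (row (B 1) fun a => (A a 1)ᵀ) := by
  ext i j
  simp only [Matrix.add_apply, Matrix.mul_apply, Matrix.transpose_apply, Fintype.sum_prod_type,
    Fin.sum_univ_two, Ro, Matrix.of_apply]

theorem row_mul (A B : Fin 2 → Fin 2 → Matrix n n ℝ) (b : Fin 2) :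
    (row (B b) fun a => (A a b)ᵀ) * (row (B b) fun a => (A a b)ᵀ)ᵀ =
      ((A 0 b)ᵀ * A 0 b + B b (0 + b) * (B b (0 + b))ᵀ) +
        ((A 1 b)ᵀ * A 1 b + B b (1 + b) * (B b (1 + b))ᵀ) := by
  ext i j
  simp only [Matrix.add_apply, Matrix.mul_apply, Matrix.transpose_apply, Fintype.sum_sum_type,
    Fintype.sum_prod_type, Fin.sum_univ_two, row, Matrix.of_apply, Sum.elim_inl, Sum.elim_inr]
  fin_cases b
  · simp only [Fin.zero_eta, Fin.isValue, add_zero]
    ring
  · have h : (1 : Fin 2) + 1 = 0 := rfl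
    simp only [Fin.mk_one, Fin.isValue, zero_add, h]
    ring

theorem psd_pair (A B : Matrix n n ℝ) : (Aᵀ * A + B * Bᵀ).PosSemidef := by
  have h1 := Matrix.posSemidef_conjTranspose_mul_self A
  have h2 := Matrix.posSemidef_self_mul_conjTranspose B
  rw [Matrix.conjTranspose_eq_transpose_of_trivial] at h1 h2
  exact h1.add h2

end VertexAux

open VertexAux

theorem vertex_ineq (A B : Fin 2 → Fin 2 → Matrix n n ℝ) :
    ve (big A) (big B) + 1 / 4 * vd A B ≤ 2 * ∑ a, ∑ b, ve (A a b) (B b (a + b)) := by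
  have hs0 : 0 ≤ Real.sqrt 2 := Real.sqrt_nonneg 2
  have hss : Real.sqrt 2 * Real.sqrt 2 = 2 := Real.mul_self_sqrt (by norm_num)
  have hs1 : (4 / 3 : ℝ) ≤ Real.sqrt 2 := by
    apply Real.le_sqrt_of_sq_le; norm_num
  have hpsd : ∀ b : Fin 2, ((row (B b) fun a => (A a b)ᵀ)ᵀ *
      (row (B b) fun a => (A a b)ᵀ)).PosSemidef := by
    intro b
    have h := Matrix.posSemidef_conjTranspose_mul_self (row (B b) fun a => (A a b)ᵀ)
    rwa [Matrix.conjTranspose_eq_transpose_of_trivial] at h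
  have hp : ∀ b : Fin 2, (vp A B b).PosSemidef := fun b => rt_posSemidef _
  have hpp : ∀ b : Fin 2, vp A B b * vp A B b = (row (B b) fun a => (A a b)ᵀ)ᵀ *
      (row (B b) fun a => (A a b)ᵀ) := fun b => rt_mul_rt (hpsd b)
  -- the left-hand side
  have h1 : ve (big A) (big B) = phi (vp A B 0 * vp A B 0 + vp A B 1 * vp A B 1) := by
    unfold ve
    rw [big_eq, phi_comm, Ro_tr, hpp, hpp]
  have h2 := half (hp 0) (hp 1)
  have h3 : 0 ≤ vd A B := defect_nonneg (hp 0) (hp 1)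
  have h4 : ∀ b : Fin 2, (vp A B b * vp A B b * vp A B b).trace ≤
      Real.sqrt 2 * (ve (A 0 b) (B b (0 + b)) + ve (A 1 b) (B b (1 + b))) := by
    intro b
    rw [← phi_sq (hp b), hpp, ← phi_comm, row_mul]
    exact phi_add_le (psd_pair _ _) (psd_pair _ _)
  have h5 : vd A B = ((vp A B 0 + vp A B 1) * (vp A B 0 - vp A B 1) *
      (vp A B 0 - vp A B 1)).trace := rfl
  rw [← h5, ← h1] at h2
  rw [Fin.sum_univ_two, Fin.sum_univ_two, Fin.sum_univ_two]
  have h6 := h4 0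
  have h7 := h4 1
  set S0 := ve (A 0 0) (B 0 (0 + 0)) + ve (A 1 0) (B 0 (1 + 0)) with hS0
  set S1 := ve (A 0 1) (B 1 (0 + 1)) + ve (A 1 1) (B 1 (1 + 1)) with hS1
  have h8 : Real.sqrt 2 * ((vp A B 0 * vp A B 0 * vp A B 0).trace +
      (vp A B 1 * vp A B 1 * vp A B 1).trace) ≤ 2 * (S0 + S1) := by
    have := mul_le_mul_of_nonneg_left (add_le_add h6 h7) hs0
    calc _ ≤ _ := this
      _ = (Real.sqrt 2 * Real.sqrt 2) * (S0 + S1) := by ring
      _ = _ := by rw [hss]
  have h9 : 1 / 4 * vd A B ≤ Real.sqrt 2 * (3 / 16) * vd A B := by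
    apply mul_le_mul_of_nonneg_right _ h3
    linarith
  linarith

end P075
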