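import Vale.Agent.P075.Gauge
import Vale.Agent.P075.Gain
import Vale.Agent.P075.Vertex

/-!
# P075 : module H, the local inequality
-/

namespace P075

open Matrix Finset

variable {n : Type} [Fintype n] [DecidableEq n]

theorem local_ineq (A B C : Fin 2 → Fin 2 → Matrix n n ℝ) :
    en (big A) (big B) (big C) + 1 / 16 * |gain A B C| ≤
      2 * ∑ a, ∑ b, en (A a b) (B b (a + b)) (C (a + b) a) := by
  obtain ⟨A', B', C', ht, h1, h2, h0⟩ := gauge A B C
  have hg : gain A B C = gain A' B' C' := by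
    unfold gain
    simp only [ht]
  have hb := gain_bound (A := A') (B := B') (C := C') (p := vp A B) (q := vp B C)
    (r := vp C A) (fun b => rt_posSemidef _) (fun b => rt_posSemidef _)
    (fun b => rt_posSemidef _) h1 h2 h0
  rw [← hg] at hb
  have e1 := vertex_ineq A B
  have e2 := vertex_ineq B C
  have e3 := vertex_ineq C A
  have d1 : vd A B = ((vp A B 0 + vp A B 1) * (vp A B 0 - vp A B 1) *
    (vp A B 0 - vp A B 1)).trace := rfl
  have d2 : vd B C = ((vp B C 0 + vp B C 1) * (vp B C 0 - vp B C 1) *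
    (vp B C 0 - vp B C 1)).trace := rfl
  have d3 : vd C A = ((vp C A 0 + vp C A 1) * (vp C A 0 - vp C A 1) *
    (vp C A 0 - vp C A 1)).trace := rfl
  rw [← d1, ← d2, ← d3] at hb
  have t00 : (0 : Fin 2) + 0 = 0 := rfl
  have t01 : (0 : Fin 2) + 1 = 1 := rfl
  have t10 : (1 : Fin 2) + 0 = 1 := rfl
  have t11 : (1 : Fin 2) + 1 = 0 := rfl
  unfold en
  simp only [Fin.sum_univ_two, t00, t01, t10, t11] at e1 e2 e3 ⊢
  linarith

end P075
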