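import Vale.Agent.P075.Basic

/-!
# P075 : module B, polar decomposition
-/

namespace P075

open Matrix Finset

variable {m n : Type} [Fintype m] [DecidableEq m] [Fintype n] [DecidableEq n]

namespace PolarAux

/-- a symmetric matrix has a symmetric pseudo-inverse which commutes with it -/
theorem pinv {p : Matrix n n ℝ} (hp : p.IsHermitian) :
    ∃ q : Matrix n n ℝ, qᵀ = q ∧ q * (p * p) = p ∧ p * q * p = p := by
  obtain ⟨U, d, hU, hpU⟩ : ∃ (U : Matrix n n ℝ) (d : n → ℝ), Uᵀ * U = 1 ∧
      p = U * diagonal d * Uᵀ := by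
    refine ⟨hp.eigenvectorUnitary, hp.eigenvalues, ?_, ?_⟩
    · have := Unitary.coe_star_mul_self hp.eigenvectorUnitary
      simpa [star_eq_conjTranspose, conjTranspose_eq_transpose_of_trivial] using this
    · have h := hp.spectral_theorem
      rw [Unitary.conjStarAlgAut_apply] at h
      simpa [star_eq_conjTranspose, conjTranspose_eq_transpose_of_trivial,
        Function.comp_def] using h
  have key : ∀ a b : n → ℝ, (U * diagonal a * Uᵀ) * (U * diagonal b * Uᵀ) =
      U * diagonal (fun i => a i * b i) * Uᵀ := by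
    intro a b
    calc (U * diagonal a * Uᵀ) * (U * diagonal b * Uᵀ)
        = U * diagonal a * (Uᵀ * U) * diagonal b * Uᵀ := by simp only [Matrix.mul_assoc]
      _ = U * (diagonal a * diagonal b) * Uᵀ := by rw [hU]; simp only [Matrix.mul_assoc, Matrix.one_mul]
      _ = _ := by rw [diagonal_mul_diagonal]
  refine ⟨U * diagonal (fun i => (d i)⁻¹) * Uᵀ, ?_, ?_, ?_⟩
  · simp only [transpose_mul, transpose_transpose, diagonal_transpose, Matrix.mul_assoc]
  · rw [hpU, key, key]
    have : (fun i => (d i)⁻¹ * (d i * d i)) = d := by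
      funext i
      by_cases h : d i = 0
      · simp [h]
      · field_simp
    rw [this]
  · rw [hpU, key, key]
    have : (fun i => d i * (d i)⁻¹ * d i) = d := by
      funext i
      by_cases h : d i = 0
      · simp [h]
      · field_simp
    rw [this]

end PolarAux

theorem polar (Y : Matrix n m ℝ) :
    ∃ J : Matrix m n ℝ, J * Y = rt (Yᵀ * Y) ∧ Jᵀ * rt (Yᵀ * Y) = Y := by
  have hpsd : (Yᵀ * Y).PosSemidef := by
    have := posSemidef_conjTranspose_mul_self Y
    rwa [conjTranspose_eq_transpose_of_trivial] at this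
  have hp := rt_posSemidef (Yᵀ * Y)
  have hpp := rt_mul_rt hpsd
  set p := rt (Yᵀ * Y) with hpdef
  have hsym : pᵀ = p := by
    have := hp.isHermitian
    rw [IsHermitian, conjTranspose_eq_transpose_of_trivial] at this
    exact this
  obtain ⟨q, hq, hq1, hq2⟩ := PolarAux.pinv hp.isHermitian
  refine ⟨q * Yᵀ, ?_, ?_⟩
  · rw [Matrix.mul_assoc, ← hpp, hq1]
  · rw [transpose_mul, transpose_transpose, hq]
    -- `Z = Y q p - Y`
    have hZ : (Y * q * p - Y)ᵀ * (Y * q * p - Y) = 0 := by
      have e1 : (Y * q * p - Y)ᵀ = p * q * Yᵀ - Yᵀ := by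
        rw [transpose_sub, transpose_mul, transpose_mul, hq, hsym, Matrix.mul_assoc]
      rw [e1]
      have e2 : (p * q * Yᵀ - Yᵀ) * (Y * q * p - Y) =
          p * (q * (Yᵀ * Y)) * (q * p) - p * (q * (Yᵀ * Y)) - (Yᵀ * Y) * q * p + Yᵀ * Y := by
        simp only [Matrix.sub_mul, Matrix.mul_sub, Matrix.mul_assoc]
        abel
      rw [e2, ← hpp, hq1]
      have e3 : p * p * q * p = p * p := by
        calc p * p * q * p = p * (p * q * p) := by simp only [Matrix.mul_assoc]
          _ = p * p := by rw [hq2]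
      have e4 : p * p * (q * p) = p * p := by rw [← Matrix.mul_assoc, e3]
      rw [e3, e4]
      abel
    have h0 : Y * q * p - Y = 0 := by
      rw [← conjTranspose_eq_transpose_of_trivial] at hZ
      exact conjTranspose_mul_self_eq_zero.1 hZ
    exact sub_eq_zero.1 h0

theorem phi_comm (Y : Matrix n m ℝ) : phi (Y * Yᵀ) = phi (Yᵀ * Y) := by
  obtain ⟨J, h1, h2⟩ := polar Y
  have hp := rt_posSemidef (Yᵀ * Y)
  have hpsd : (Yᵀ * Y).PosSemidef := by
    have := posSemidef_conjTranspose_mul_self Y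
    rwa [conjTranspose_eq_transpose_of_trivial] at this
  have hpp := rt_mul_rt hpsd
  have hphi : phi (Yᵀ * Y) = (rt (Yᵀ * Y) * rt (Yᵀ * Y) * rt (Yᵀ * Y)).trace := rfl
  rw [hphi]
  set p := rt (Yᵀ * Y) with hpdef
  have hsym : pᵀ = p := by
    have := hp.isHermitian
    rw [IsHermitian, conjTranspose_eq_transpose_of_trivial] at this
    exact this
  have hYt : Yᵀ = p * J := by
    have := congrArg transpose h2
    rw [transpose_mul, transpose_transpose, hsym] at this
    exact this.symm
  have hs : (Jᵀ * p * J).PosSemidef := by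
    have := hp.conjTranspose_mul_mul_same J
    rwa [conjTranspose_eq_transpose_of_trivial] at this
  have hss : (Jᵀ * p * J) * (Jᵀ * p * J) = Y * Yᵀ := by
    have a1 : J * (Jᵀ * p) = p := by rw [h2, h1]
    calc (Jᵀ * p * J) * (Jᵀ * p * J) = Jᵀ * p * (J * (Jᵀ * p)) * J := by
          simp only [Matrix.mul_assoc]
      _ = (Jᵀ * p) * (p * J) := by rw [a1]; simp only [Matrix.mul_assoc]
      _ = Y * Yᵀ := by rw [h2, ← hYt]
  rw [← hss, phi_sq hs]
  have a1 : J * (Jᵀ * p) = p := by rw [h2, h1]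
  calc ((Jᵀ * p * J) * (Jᵀ * p * J) * (Jᵀ * p * J)).trace
      = ((Jᵀ * p) * (J * (Jᵀ * p) * (J * (Jᵀ * p)) * J)).trace := by
        simp only [Matrix.mul_assoc]
    _ = ((J * (Jᵀ * p) * (J * (Jᵀ * p)) * J) * (Jᵀ * p)).trace := by rw [trace_mul_comm]
    _ = ((J * (Jᵀ * p)) * (J * (Jᵀ * p)) * (J * (Jᵀ * p))).trace := by
        simp only [Matrix.mul_assoc]
    _ = (p * p * p).trace := by rw [a1]

end P075
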