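import Vale.Agent.P075.Tree
import Vale.Agent.P075.Leq

/-!
# P075 : transfer to the continuous form (module M2)
-/

namespace P075

open Matrix Finset

namespace TransferAux

open MeasureTheory

/-- a cell of the grid -/
def cell (δ : ℝ) (i j : ℕ) : Set (ℝ × ℝ) :=
  Set.Ico (δ * i) (δ * (i + 1)) ×ˢ Set.Ico (δ * j) (δ * (j + 1))

theorem measurableSet_cell (δ : ℝ) (i j : ℕ) : MeasurableSet (cell δ i j) :=
  measurableSet_Ico.prod measurableSet_Ico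

theorem mem_cell_iff {δ : ℝ} (hδ : 0 < δ) (i j : ℕ) (t : ℝ × ℝ) :
    δ • (((i : ℝ), (j : ℝ)) + t) ∈ cell δ i j ↔ t ∈ Set.Ico (0 : ℝ) 1 ×ˢ Set.Ico (0 : ℝ) 1 := by
  simp only [cell, Set.mem_prod, Set.mem_Ico, Prod.smul_fst, Prod.smul_snd, Prod.fst_add,
    Prod.snd_add, smul_eq_mul]
  constructor
  · rintro ⟨⟨h1, h2⟩, h3, h4⟩
    have h1' := le_of_mul_le_mul_left h1 hδ
    have h2' := lt_of_mul_lt_mul_left h2 hδ.le
    have h3' := le_of_mul_le_mul_left h3 hδ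
    have h4' := lt_of_mul_lt_mul_left h4 hδ.le
    refine ⟨⟨?_, ?_⟩, ?_, ?_⟩ <;> linarith
  · rintro ⟨⟨h1, h2⟩, h3, h4⟩
    refine ⟨⟨?_, ?_⟩, ?_, ?_⟩
    · apply mul_le_mul_of_nonneg_left _ hδ.le; linarith
    · apply mul_lt_mul_of_pos_left _ hδ; linarith
    · apply mul_le_mul_of_nonneg_left _ hδ.le; linarith
    · apply mul_lt_mul_of_pos_left _ hδ; linarith

theorem cell_integral {δ : ℝ} (hδ : 0 < δ) (i j : ℕ) (G : ℝ × ℝ → ℝ) :
    δ ^ 2 * ∫ t in Set.Ico (0 : ℝ) 1 ×ˢ Set.Ico (0 : ℝ) 1, G (δ * (i + t.1), δ * (j + t.2)) =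
      ∫ x in cell δ i j, G x := by
  rw [← integral_indicator (measurableSet_Ico.prod measurableSet_Ico),
    ← integral_indicator (measurableSet_cell δ i j)]
  have h : (fun t : ℝ × ℝ => (Set.Ico (0 : ℝ) 1 ×ˢ Set.Ico (0 : ℝ) 1).indicator
      (fun t => G (δ * (i + t.1), δ * (j + t.2))) t) =
      fun t => (fun u : ℝ × ℝ => (cell δ i j).indicator G (δ • u)) (((i : ℝ), (j : ℝ)) + t) := by
    funext t
    by_cases ht : t ∈ Set.Ico (0 : ℝ) 1 ×ˢ Set.Ico (0 : ℝ) 1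
    · rw [Set.indicator_of_mem ht]
      simp only
      rw [Set.indicator_of_mem ((mem_cell_iff hδ i j t).2 ht)]
      rfl
    · rw [Set.indicator_of_notMem ht]
      simp only
      rw [Set.indicator_of_notMem fun h => ht ((mem_cell_iff hδ i j t).1 h)]
  rw [h, integral_add_left_eq_self (fun u : ℝ × ℝ => (cell δ i j).indicator G (δ • u)),
    Measure.integral_comp_smul]
  have h2 : Module.finrank ℝ (ℝ × ℝ) = 2 := by simp
  rw [h2, abs_of_pos (inv_pos.2 (pow_pos hδ 2)), smul_eq_mul, ← mul_assoc,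
    mul_inv_cancel₀ (pow_pos hδ 2).ne', one_mul]

theorem cell_disjoint {δ : ℝ} (hδ : 0 < δ) {p q : ℕ × ℕ} (hpq : p ≠ q) :
    Disjoint (cell δ p.1 p.2) (cell δ q.1 q.2) := by
  rw [Set.disjoint_left]
  rintro x ⟨⟨h1, h2⟩, h3, h4⟩ ⟨⟨h5, h6⟩, h7, h8⟩
  apply hpq
  have key : ∀ {a b : ℕ} {y : ℝ}, δ * a ≤ y → y < δ * (b + 1) → a ≤ b := by
    intro a b y ha hb
    have h := lt_of_mul_lt_mul_left (ha.trans_lt hb) hδ.le
    have h' : (a : ℝ) < ((b + 1 : ℕ) : ℝ) := by push_cast; exact h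
    have := Nat.cast_lt.1 h'
    omega
  exact Prod.ext (le_antisymm (key h1 h6) (key h5 h2)) (le_antisymm (key h3 h8) (key h7 h4))

theorem cell_subset {δ : ℝ} (hδ : 0 < δ) (i j : ℕ) :
    cell δ i j ⊆ Set.Ici (0 : ℝ) ×ˢ Set.Ici (0 : ℝ) := by
  rintro x ⟨⟨h1, -⟩, h3, -⟩
  exact ⟨le_trans (by positivity) h1, le_trans (by positivity) h3⟩

/-- the unit interval with Lebesgue measure -/
noncomputable abbrev nu : Measure ℝ := volume.restrict (Set.Ico (0 : ℝ) 1)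

instance : IsProbabilityMeasure nu := ⟨by simp [nu]⟩

theorem two_eq : (volume.restrict (Set.Ico (0 : ℝ) 1 ×ˢ Set.Ico (0 : ℝ) 1) : Measure (ℝ × ℝ)) =
    nu.prod nu := by
  rw [Measure.prod_restrict]; rfl

theorem three_eq : (volume.restrict (Set.Ico (0 : ℝ) 1 ×ˢ Set.Ico (0 : ℝ) 1 ×ˢ
    Set.Ico (0 : ℝ) 1) : Measure (ℝ × ℝ × ℝ)) = nu.prod (nu.prod nu) := by
  rw [Measure.prod_restrict, Measure.prod_restrict]; rfl

theorem mp0 : MeasurePreserving (fun t : ℝ × ℝ × ℝ => (t.1, t.2.1)) (nu.prod (nu.prod nu))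
    (nu.prod nu) :=
  (MeasurePreserving.id nu).prod measurePreserving_fst

theorem mp1 : MeasurePreserving (fun t : ℝ × ℝ × ℝ => (t.2.1, t.2.2)) (nu.prod (nu.prod nu))
    (nu.prod nu) :=
  measurePreserving_snd

theorem mp2 : MeasurePreserving (fun t : ℝ × ℝ × ℝ => (t.2.2, t.1)) (nu.prod (nu.prod nu))
    (nu.prod nu) :=
  Measure.measurePreserving_swap.comp ((MeasurePreserving.id nu).prod measurePreserving_snd)

theorem mp_integral {φ : ℝ × ℝ × ℝ → ℝ × ℝ} (hφ : MeasurePreserving φ (nu.prod (nu.prod nu))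
    (nu.prod nu)) {f : ℝ × ℝ → ℝ} (hf : Measurable f) :
    ∫ t, f (φ t) ∂(nu.prod (nu.prod nu)) = ∫ u, f u ∂(nu.prod nu) := by
  have h := integral_map hφ.measurable.aemeasurable (f := f)
    (hf.aestronglyMeasurable (μ := Measure.map φ (nu.prod (nu.prod nu))))
  rw [hφ.map_eq] at h
  exact h.symm

/-- the sum of the cubes of the values at the translates -/
noncomputable def HH (m : ℤ) (M : ℕ) (F : ℝ × ℝ → ℝ) (u : ℝ × ℝ) : ℝ :=
  ∑ i ∈ range M, ∑ j ∈ range M, |F ((2 : ℝ) ^ m * (i + u.1), (2 : ℝ) ^ m * (j + u.2))| ^ 3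

theorem HH_meas (m : ℤ) (M : ℕ) {F : ℝ × ℝ → ℝ} (hF : Measurable F) :
    Measurable (HH m M F) := by
  unfold HH
  refine Finset.measurable_sum _ fun i _ => Finset.measurable_sum _ fun j _ => ?_
  have h1 : Measurable fun t : ℝ × ℝ =>
      ((2 : ℝ) ^ m * (i + t.1), (2 : ℝ) ^ m * (j + t.2)) := by fun_prop
  have h2 : Measurable fun x : ℝ × ℝ => |F x| ^ 3 := (hF.abs).pow_const 3
  exact h2.comp h1

theorem HH_bound (m : ℤ) (M : ℕ) {F : ℝ × ℝ → ℝ} {K : ℝ} (hK : ∀ x, |F x| ≤ K) (u : ℝ × ℝ) :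
    ‖HH m M F u‖ ≤ M * (M * K ^ 3) := by
  have h0 : 0 ≤ HH m M F u := by unfold HH; positivity
  rw [Real.norm_eq_abs, abs_of_nonneg h0]
  unfold HH
  calc _ ≤ ∑ _i ∈ range M, ∑ _j ∈ range M, K ^ 3 :=
        Finset.sum_le_sum fun i _ => Finset.sum_le_sum fun j _ =>
          pow_le_pow_left₀ (abs_nonneg _) (hK _) 3
    _ = _ := by simp

theorem HH_int (m : ℤ) (M : ℕ) {F : ℝ × ℝ → ℝ} (hF : Measurable F) {K : ℝ}
    (hK : ∀ x, |F x| ≤ K) {φ : ℝ × ℝ × ℝ → ℝ × ℝ} (hφ : Measurable φ) :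
    Integrable (fun t => HH m M F (φ t)) (nu.prod (nu.prod nu)) :=
  Integrable.of_bound ((HH_meas m M hF).comp hφ).aestronglyMeasurable _
    (Filter.Eventually.of_forall fun t => HH_bound m M hK (φ t))

theorem Ld_meas (m : ℤ) {F₀ F₁ F₂ : ℝ × ℝ → ℝ} (h₀ : Measurable F₀)
    (h₁ : Measurable F₁) (h₂ : Measurable F₂) (k i j l : ℕ) :
    Measurable fun t : ℝ × ℝ × ℝ =>
      Ld k (fun p q => F₀ ((2 : ℝ) ^ m * (p + t.1), (2 : ℝ) ^ m * (q + t.2.1)))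
          (fun p q => F₁ ((2 : ℝ) ^ m * (p + t.2.1), (2 : ℝ) ^ m * (q + t.2.2)))
          (fun p q => F₂ ((2 : ℝ) ^ m * (p + t.2.2), (2 : ℝ) ^ m * (q + t.1))) i j l := by
  unfold Ld
  refine Measurable.div_const ?_ _
  refine Finset.measurable_sum _ fun a _ => Finset.measurable_sum _ fun b _ =>
    Finset.measurable_sum _ fun c _ => Measurable.const_mul ?_ _
  refine Finset.measurable_sum _ fun x _ => Finset.measurable_sum _ fun y _ =>
    Finset.measurable_sum _ fun z _ => ?_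
  refine Measurable.mul (Measurable.mul ?_ ?_) ?_
  · exact h₀.comp (by fun_prop)
  · exact h₁.comp (by fun_prop)
  · exact h₂.comp (by fun_prop)

end TransferAux

open TransferAux

/-- the sum over the cells is at most the cube of the norm -/
theorem cube_ge (m : ℤ) (M : ℕ) {F : ℝ × ℝ → ℝ} (hF : Measurable F) {K : ℝ}
    (hK : ∀ x, |F x| ≤ K) (hi : MeasureTheory.IntegrableOn (fun x => |F x| ^ 3)
      (Set.Ici (0 : ℝ) ×ˢ Set.Ici (0 : ℝ))) :
    ((2 : ℝ) ^ m) ^ 2 * ∫ t in Set.Ico (0 : ℝ) 1 ×ˢ Set.Ico (0 : ℝ) 1,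
      ∑ i ∈ range M, ∑ j ∈ range M,
        |F ((2 : ℝ) ^ m * (i + t.1), (2 : ℝ) ^ m * (j + t.2))| ^ 3 ≤ cube F := by
  have hδ : (0 : ℝ) < (2 : ℝ) ^ m := by positivity
  have hint : ∀ p : ℕ × ℕ, MeasureTheory.IntegrableOn (fun t : ℝ × ℝ =>
      |F ((2 : ℝ) ^ m * (p.1 + t.1), (2 : ℝ) ^ m * (p.2 + t.2))| ^ 3)
      (Set.Ico (0 : ℝ) 1 ×ˢ Set.Ico (0 : ℝ) 1) := by
    intro p
    unfold MeasureTheory.IntegrableOn
    rw [two_eq]
    refine MeasureTheory.Integrable.of_bound (C := K ^ 3) ?_ ?_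
    · apply Measurable.aestronglyMeasurable
      have h1 : Measurable fun t : ℝ × ℝ =>
          ((2 : ℝ) ^ m * (p.1 + t.1), (2 : ℝ) ^ m * (p.2 + t.2)) := by fun_prop
      have h2 : Measurable fun x : ℝ × ℝ => |F x| ^ 3 := (hF.abs).pow_const 3
      exact h2.comp h1
    · refine Filter.Eventually.of_forall fun t => ?_
      rw [Real.norm_eq_abs, abs_of_nonneg (by positivity)]
      exact pow_le_pow_left₀ (abs_nonneg _) (hK _) 3
  have hsum : ∀ t : ℝ × ℝ, ∑ i ∈ range M, ∑ j ∈ range M,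
      |F ((2 : ℝ) ^ m * (i + t.1), (2 : ℝ) ^ m * (j + t.2))| ^ 3 =
      ∑ p ∈ range M ×ˢ range M,
        |F ((2 : ℝ) ^ m * (p.1 + t.1), (2 : ℝ) ^ m * (p.2 + t.2))| ^ 3 := by
    intro t
    rw [Finset.sum_product]
  simp only [hsum]
  rw [MeasureTheory.integral_finsetSum _ fun p _ => hint p, Finset.mul_sum]
  have hc : ∀ p ∈ range M ×ˢ range M, ((2 : ℝ) ^ m) ^ 2 *
      ∫ t in Set.Ico (0 : ℝ) 1 ×ˢ Set.Ico (0 : ℝ) 1,
        |F ((2 : ℝ) ^ m * (p.1 + t.1), (2 : ℝ) ^ m * (p.2 + t.2))| ^ 3 =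
      ∫ x in cell ((2 : ℝ) ^ m) p.1 p.2, |F x| ^ 3 := by
    intro p _
    exact cell_integral hδ p.1 p.2 fun x => |F x| ^ 3
  rw [Finset.sum_congr rfl hc]
  rw [← MeasureTheory.integral_biUnion_finset (range M ×ˢ range M)
    (fun p _ => measurableSet_cell _ _ _)
    (fun p _ q _ hpq => cell_disjoint hδ hpq)
    (fun p _ => hi.mono_set (cell_subset hδ _ _))]
  unfold cube
  refine MeasureTheory.setIntegral_mono_set hi ?_ ?_
  · exact Filter.Eventually.of_forall fun x => by positivity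
  · apply Filter.Eventually.of_forall
    intro x hx
    obtain ⟨p, hp⟩ := Set.mem_iUnion.1 hx
    obtain ⟨_, hp2⟩ := Set.mem_iUnion.1 hp
    exact cell_subset hδ _ _ hp2

theorem transfer (m : ℤ) (N : ℕ) {F₀ F₁ F₂ : ℝ × ℝ → ℝ} (h₀ : Measurable F₀)
    (h₁ : Measurable F₁) (h₂ : Measurable F₂) {K : ℝ} (b₀ : ∀ x, |F₀ x| ≤ K)
    (b₁ : ∀ x, |F₁ x| ≤ K) (b₂ : ∀ x, |F₂ x| ≤ K)
    (i₀ : MeasureTheory.IntegrableOn (fun x => |F₀ x| ^ 3) (Set.Ici (0 : ℝ) ×ˢ Set.Ici (0 : ℝ)))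
    (i₁ : MeasureTheory.IntegrableOn (fun x => |F₁ x| ^ 3) (Set.Ici (0 : ℝ) ×ˢ Set.Ici (0 : ℝ)))
    (i₂ : MeasureTheory.IntegrableOn (fun x => |F₂ x| ^ 3)
      (Set.Ici (0 : ℝ) ×ˢ Set.Ici (0 : ℝ))) :
    ∑ k ∈ range N, ∑ i ∈ range (2 ^ (N - (k + 1))), ∑ j ∈ range (2 ^ (N - (k + 1))),
      |L (m + (k + 1)) (i, j, i ^^^ j) F₀ F₁ F₂| ≤ 48 * (cube F₀ + cube F₁ + cube F₂) := by
  -- the integrand
  let D : ℕ → ℕ → ℕ → ℝ × ℝ × ℝ → ℝ := fun k i j t =>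
    Ld k (fun p q => F₀ ((2 : ℝ) ^ m * (p + t.1), (2 : ℝ) ^ m * (q + t.2.1)))
      (fun p q => F₁ ((2 : ℝ) ^ m * (p + t.2.1), (2 : ℝ) ^ m * (q + t.2.2)))
      (fun p q => F₂ ((2 : ℝ) ^ m * (p + t.2.2), (2 : ℝ) ^ m * (q + t.1))) i j (i ^^^ j)
  let R : ℝ × ℝ × ℝ → ℝ := fun t => 48 * (HH m (2 ^ N) F₀ (t.1, t.2.1) +
    HH m (2 ^ N) F₁ (t.2.1, t.2.2) + HH m (2 ^ N) F₂ (t.2.2, t.1))
  have hD : ∀ k i j, Measurable (D k i j) := fun k i j => Ld_meas m h₀ h₁ h₂ k i j _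
  have hR₀ := HH_int m (2 ^ N) h₀ b₀ mp0.measurable
  have hR₁ := HH_int m (2 ^ N) h₁ b₁ mp1.measurable
  have hR₂ := HH_int m (2 ^ N) h₂ b₂ mp2.measurable
  have hR : MeasureTheory.Integrable R (nu.prod (nu.prod nu)) :=
    ((hR₀.add hR₁).add hR₂).const_mul 48
  have hle : ∀ t, ∑ k ∈ range N, ∑ i ∈ range (2 ^ (N - (k + 1))),
      ∑ j ∈ range (2 ^ (N - (k + 1))), |D k i j t| ≤ R t := by
    intro t
    refine (tree N _ _ _).trans (le_of_eq ?_)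
    simp only [R, HH, ← Finset.sum_add_distrib]
  have hDi : ∀ k ∈ range N, ∀ i ∈ range (2 ^ (N - (k + 1))),
      ∀ j ∈ range (2 ^ (N - (k + 1))),
      MeasureTheory.Integrable (fun t => |D k i j t|) (nu.prod (nu.prod nu)) := by
    intro k hk i hi j hj
    refine hR.mono' (hD k i j).abs.aestronglyMeasurable ?_
    refine Filter.Eventually.of_forall fun t => ?_
    rw [Real.norm_eq_abs, abs_abs]
    refine le_trans ?_ (hle t)
    calc |D k i j t| ≤ ∑ j ∈ range (2 ^ (N - (k + 1))), |D k i j t| :=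
          Finset.single_le_sum (f := fun j => |D k i j t|) (fun _ _ => abs_nonneg _) hj
      _ ≤ ∑ i ∈ range (2 ^ (N - (k + 1))), ∑ j ∈ range (2 ^ (N - (k + 1))), |D k i j t| :=
          Finset.single_le_sum (f := fun i => ∑ j ∈ range (2 ^ (N - (k + 1))), |D k i j t|)
            (fun _ _ => Finset.sum_nonneg fun _ _ => abs_nonneg _) hi
      _ ≤ _ :=
          Finset.single_le_sum (f := fun k => ∑ i ∈ range (2 ^ (N - (k + 1))),
            ∑ j ∈ range (2 ^ (N - (k + 1))), |D k i j t|)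
            (fun _ _ => Finset.sum_nonneg fun _ _ => Finset.sum_nonneg fun _ _ => abs_nonneg _) hk
  have hL : ∀ k ∈ range N, ∀ i ∈ range (2 ^ (N - (k + 1))),
      ∀ j ∈ range (2 ^ (N - (k + 1))),
      |L (m + (k + 1)) (i, j, i ^^^ j) F₀ F₁ F₂| ≤
        ((2 : ℝ) ^ m) ^ 2 * ∫ t, |D k i j t| ∂(nu.prod (nu.prod nu)) := by
    intro k hk i hi j hj
    rw [L_eq m k (i, j, i ^^^ j) h₀ h₁ h₂ b₀ b₁ b₂, three_eq, abs_mul,
      abs_of_nonneg (by positivity : (0 : ℝ) ≤ ((2 : ℝ) ^ m) ^ 2)]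
    refine mul_le_mul_of_nonneg_left ?_ (by positivity)
    exact MeasureTheory.abs_integral_le_integral_abs
  calc ∑ k ∈ range N, ∑ i ∈ range (2 ^ (N - (k + 1))), ∑ j ∈ range (2 ^ (N - (k + 1))),
      |L (m + (k + 1)) (i, j, i ^^^ j) F₀ F₁ F₂|
      ≤ ∑ k ∈ range N, ∑ i ∈ range (2 ^ (N - (k + 1))), ∑ j ∈ range (2 ^ (N - (k + 1))),
        ((2 : ℝ) ^ m) ^ 2 * ∫ t, |D k i j t| ∂(nu.prod (nu.prod nu)) :=
        Finset.sum_le_sum fun k hk => Finset.sum_le_sum fun i hi =>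
          Finset.sum_le_sum fun j hj => hL k hk i hi j hj
    _ = ((2 : ℝ) ^ m) ^ 2 * ∫ t, ∑ k ∈ range N, ∑ i ∈ range (2 ^ (N - (k + 1))),
          ∑ j ∈ range (2 ^ (N - (k + 1))), |D k i j t| ∂(nu.prod (nu.prod nu)) := by
        simp only [← Finset.mul_sum]
        congr 1
        rw [MeasureTheory.integral_finsetSum _ fun k hk =>
          MeasureTheory.integrable_finsetSum _ fun i hi =>
            MeasureTheory.integrable_finsetSum _ fun j hj => hDi k hk i hi j hj]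
        refine Finset.sum_congr rfl fun k hk => ?_
        rw [MeasureTheory.integral_finsetSum _ fun i hi =>
            MeasureTheory.integrable_finsetSum _ fun j hj => hDi k hk i hi j hj]
        refine Finset.sum_congr rfl fun i hi => ?_
        rw [MeasureTheory.integral_finsetSum _ fun j hj => hDi k hk i hi j hj]
    _ ≤ ((2 : ℝ) ^ m) ^ 2 * ∫ t, R t ∂(nu.prod (nu.prod nu)) := by
        refine mul_le_mul_of_nonneg_left ?_ (by positivity)
        refine MeasureTheory.integral_mono ?_ hR hle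
        exact MeasureTheory.integrable_finsetSum _ fun k hk =>
          MeasureTheory.integrable_finsetSum _ fun i hi =>
            MeasureTheory.integrable_finsetSum _ fun j hj => hDi k hk i hi j hj
    _ = 48 * (((2 : ℝ) ^ m) ^ 2 * ∫ u, HH m (2 ^ N) F₀ u ∂(nu.prod nu) +
          ((2 : ℝ) ^ m) ^ 2 * ∫ u, HH m (2 ^ N) F₁ u ∂(nu.prod nu) +
          ((2 : ℝ) ^ m) ^ 2 * ∫ u, HH m (2 ^ N) F₂ u ∂(nu.prod nu)) := by
        simp only [R]
        have hadd : MeasureTheory.Integrable (fun t : ℝ × ℝ × ℝ =>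
            HH m (2 ^ N) F₀ (t.1, t.2.1) + HH m (2 ^ N) F₁ (t.2.1, t.2.2))
            (nu.prod (nu.prod nu)) := hR₀.add hR₁
        rw [MeasureTheory.integral_const_mul, MeasureTheory.integral_add hadd hR₂,
          MeasureTheory.integral_add hR₀ hR₁, ← mp_integral mp0 (HH_meas m (2 ^ N) h₀),
          ← mp_integral mp1 (HH_meas m (2 ^ N) h₁), ← mp_integral mp2 (HH_meas m (2 ^ N) h₂)]
        ring
    _ ≤ 48 * (cube F₀ + cube F₁ + cube F₂) := by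
        have c₀ := cube_ge m (2 ^ N) h₀ b₀ i₀
        have c₁ := cube_ge m (2 ^ N) h₁ b₁ i₁
        have c₂ := cube_ge m (2 ^ N) h₂ b₂ i₂
        rw [two_eq] at c₀ c₁ c₂
        unfold HH
        linarith

end P075
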