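import Vale.Agent.P075.Local

/-!
# P075 : module T, the induction on scales
-/

namespace P075

open Matrix Finset

namespace TreeAux

theorem sum_Ix : ∀ (k : ℕ) (f : ℕ → ℝ), ∑ x : Ix k, f (pos k x) = ∑ x ∈ range (2 ^ k), f x
  | 0, f => by
    have : ∑ x : Ix 0, f (pos 0 x) = ∑ x : Unit, f 0 := rfl
    rw [this]
    simp
  | k + 1, f => by
    have h : ∑ x : Ix (k + 1), f (pos (k + 1) x) =
        ∑ x : Fin 2 × Ix k, f (2 ^ k * (x.1 : ℕ) + pos k x.2) := rfl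
    rw [h, Fintype.sum_prod_type, Fin.sum_univ_two]
    have e₀ := sum_Ix k (fun x => f (2 ^ k * ((0 : Fin 2) : ℕ) + x))
    have e₁ := sum_Ix k (fun x => f (2 ^ k * ((1 : Fin 2) : ℕ) + x))
    rw [e₀, e₁, pow_succ, mul_two, sum_range_add]
    simp

theorem xor_two (i j : ℕ) (a b : Fin 2) :
    (2 * i + (a : ℕ)) ^^^ (2 * j + (b : ℕ)) = 2 * (i ^^^ j) + ((a + b : Fin 2) : ℕ) := by
  have h₁ : ((2 * i + (a : ℕ)) ^^^ (2 * j + (b : ℕ))) / 2 =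
      ((2 * i + (a : ℕ)) / 2) ^^^ ((2 * j + (b : ℕ)) / 2) := by
    exact Nat.xor_div_two
  have h₂ : ((2 * i + (a : ℕ)) ^^^ (2 * j + (b : ℕ))) % 2 =
      ((2 * i + (a : ℕ)) + (2 * j + (b : ℕ))) % 2 := by
    exact Nat.xor_mod_two_eq
  have ha := a.isLt
  have hb := b.isLt
  have h₃ : (2 * i + (a : ℕ)) / 2 = i := by omega
  have h₄ : (2 * j + (b : ℕ)) / 2 = j := by omega
  rw [h₃, h₄] at h₁
  have h₅ : ((a + b : Fin 2) : ℕ) = ((a : ℕ) + (b : ℕ)) % 2 := Fin.val_add a b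
  omega

theorem sum_xor (N : ℕ) (g : ℕ → ℝ) {j : ℕ} (hj : j < 2 ^ N) :
    ∑ i ∈ range (2 ^ N), g (i ^^^ j) = ∑ i ∈ range (2 ^ N), g i := by
  refine sum_nbij' (fun i => i ^^^ j) (fun i => i ^^^ j) ?_ ?_ ?_ ?_ ?_
  · intro i hi
    rw [mem_range] at hi ⊢
    exact Nat.xor_lt_two_pow hi hj
  · intro i hi
    rw [mem_range] at hi ⊢
    exact Nat.xor_lt_two_pow hi hj
  · intro i _
    simp
  · intro i _
    simp
  · intro i _
    rfl

theorem sum_xor' (N : ℕ) (g : ℕ → ℝ) {j : ℕ} (hj : j < 2 ^ N) :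
    ∑ i ∈ range (2 ^ N), g (j ^^^ i) = ∑ i ∈ range (2 ^ N), g i := by
  rw [← sum_xor N g hj]
  exact sum_congr rfl fun i _ => by rw [Nat.xor_comm]

theorem sum_double (M : ℕ) (f : ℕ → ℝ) :
    ∑ i ∈ range M, ∑ a : Fin 2, f (2 * i + (a : ℕ)) = ∑ i ∈ range (2 * M), f i := by
  induction M with
  | zero => simp
  | succ M ih =>
    rw [sum_range_succ, ih, Nat.mul_succ, sum_range_succ, sum_range_succ, Fin.sum_univ_two]
    simp [add_assoc]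

theorem sum_double₂ (M : ℕ) (f : ℕ → ℕ → ℝ) :
    ∑ i ∈ range M, ∑ j ∈ range M, ∑ a : Fin 2, ∑ b : Fin 2, f (2 * i + (a : ℕ)) (2 * j + (b : ℕ))
      = ∑ i ∈ range (2 * M), ∑ j ∈ range (2 * M), f i j := by
  rw [← sum_double M (fun i => ∑ j ∈ range (2 * M), f i j)]
  refine sum_congr rfl fun i _ => ?_
  rw [sum_comm]
  refine sum_congr rfl fun a _ => ?_
  rw [sum_double M (fun j => f (2 * i + (a : ℕ)) j)]

theorem node_big (k : ℕ) (F : ℕ → ℕ → ℝ) (i j : ℕ) :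
    node (k + 1) F i j = big (fun a b => node k F (2 * i + (a : ℕ)) (2 * j + (b : ℕ))) := by
  funext x y
  have h : ∀ (i : ℕ) (x : Ix (k + 1)), 2 ^ (k + 1) * i + pos (k + 1) x =
      2 ^ k * (2 * i + (x.1 : ℕ)) + pos k x.2 := by
    intro i x
    have : pos (k + 1) x = 2 ^ k * (x.1 : ℕ) + pos k x.2 := rfl
    rw [this]
    ring
  show F _ _ = F _ _
  rw [h, h]

theorem trace_node (k : ℕ) (F₀ F₁ F₂ : ℕ → ℕ → ℝ) (i j l : ℕ) :
    (node k F₀ i j * node k F₁ j l * node k F₂ l i).trace =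
      ∑ x ∈ range (2 ^ k), ∑ y ∈ range (2 ^ k), ∑ z ∈ range (2 ^ k),
        F₀ (2 ^ k * i + x) (2 ^ k * j + y) * F₁ (2 ^ k * j + y) (2 ^ k * l + z) *
          F₂ (2 ^ k * l + z) (2 ^ k * i + x) := by
  have h : ∀ x y : Ix k, ∑ z ∈ range (2 ^ k),
      F₀ (2 ^ k * i + pos k x) (2 ^ k * j + pos k y) *
        F₁ (2 ^ k * j + pos k y) (2 ^ k * l + z) *
          F₂ (2 ^ k * l + z) (2 ^ k * i + pos k x) = ∑ z : Ix k,
      F₀ (2 ^ k * i + pos k x) (2 ^ k * j + pos k y) *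
        F₁ (2 ^ k * j + pos k y) (2 ^ k * l + pos k z) *
          F₂ (2 ^ k * l + pos k z) (2 ^ k * i + pos k x) := fun x y =>
    (sum_Ix k (fun z => F₀ (2 ^ k * i + pos k x) (2 ^ k * j + pos k y) *
        F₁ (2 ^ k * j + pos k y) (2 ^ k * l + z) *
          F₂ (2 ^ k * l + z) (2 ^ k * i + pos k x))).symm
  rw [← sum_Ix k (fun x => ∑ y ∈ range (2 ^ k), ∑ z ∈ range (2 ^ k),
        F₀ (2 ^ k * i + x) (2 ^ k * j + y) * F₁ (2 ^ k * j + y) (2 ^ k * l + z) *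
          F₂ (2 ^ k * l + z) (2 ^ k * i + x))]
  simp only [trace, diag_apply, mul_apply]
  refine sum_congr rfl fun x _ => ?_
  rw [← sum_Ix k (fun y => ∑ z ∈ range (2 ^ k),
        F₀ (2 ^ k * i + pos k x) (2 ^ k * j + y) * F₁ (2 ^ k * j + y) (2 ^ k * l + z) *
          F₂ (2 ^ k * l + z) (2 ^ k * i + pos k x))]
  simp only [h, sum_mul]
  rw [sum_comm]
  rfl

theorem Ld_gain (k : ℕ) (F₀ F₁ F₂ : ℕ → ℕ → ℝ) (i j l : ℕ) :
    Ld k F₀ F₁ F₂ i j l =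
      gain (fun a b => node k F₀ (2 * i + (a : ℕ)) (2 * j + (b : ℕ)))
        (fun b c => node k F₁ (2 * j + (b : ℕ)) (2 * l + (c : ℕ)))
        (fun c a => node k F₂ (2 * l + (c : ℕ)) (2 * i + (a : ℕ))) / 2 ^ (k + 1) := by
  unfold Ld gain
  simp only [trace_node]
  have h : ∀ (i a x : ℕ), 2 ^ (k + 1) * i + 2 ^ k * a + x = 2 ^ k * (2 * i + a) + x := by
    intro i a x
    ring
  simp only [h]

theorem cubic {s a b : ℝ} (ha : 0 ≤ a) (hb : 0 ≤ b) (h : s * s = a * a + b * b) :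
    s * s * s ≤ 3 / 2 * (a ^ 3 + b ^ 3) := by
  have h₁ : (s * s * s) * (s * s * s) ≤ (3 / 2 * (a ^ 3 + b ^ 3)) * (3 / 2 * (a ^ 3 + b ^ 3)) := by
    have e : (s * s * s) * (s * s * s) = (a * a + b * b) ^ 3 := by rw [← h]; ring
    rw [e]
    have p : 0 ≤ (a - b) ^ 2 * (a ^ 4 + 2 * a ^ 3 * b + 2 * a * b ^ 3 + b ^ 4) := by positivity
    have q : 0 ≤ 1 / 4 * (a ^ 3 + b ^ 3) ^ 2 := by positivity
    nlinarith [p, q]
  exact abs_le_of_sq_le_sq' (by nlinarith) (by positivity) |>.2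

theorem ve_leaf (A B : Matrix (Ix 0) (Ix 0) ℝ) (x : Ix 0) :
    ve A B ≤ 3 / 2 * (|A x x| ^ 3 + |B x x| ^ 3) := by
  have hx : ∀ y : Ix 0, y = x := fun y => rfl
  obtain ⟨s, hs⟩ : ∃ s : ℝ, s = Real.sqrt (A x x * A x x + B x x * B x x) := ⟨_, rfl⟩
  have hs₀ : 0 ≤ s := hs ▸ Real.sqrt_nonneg _
  have hss : s * s = A x x * A x x + B x x * B x x := by
    rw [hs]
    exact Real.mul_self_sqrt (by nlinarith [mul_self_nonneg (A x x), mul_self_nonneg (B x x)])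
  have hsum : ∀ f : Ix 0 → ℝ, ∑ y, f y = f x := by
    intro f
    exact Fintype.sum_eq_single x (fun y hy => absurd (hx y) hy)
  have e : Aᵀ * A + B * Bᵀ = (s • (1 : Matrix (Ix 0) (Ix 0) ℝ)) * (s • 1) := by
    ext y z
    rw [hx y, hx z]
    simp only [Matrix.add_apply, mul_apply, hsum, transpose_apply, Matrix.smul_apply,
      one_apply_eq, smul_eq_mul, mul_one]
    linarith
  have hp : (s • (1 : Matrix (Ix 0) (Ix 0) ℝ)).PosSemidef := PosSemidef.one.smul hs₀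
  unfold ve
  rw [e, phi_sq hp]
  have t : (s • (1 : Matrix (Ix 0) (Ix 0) ℝ) * (s • 1) * (s • 1)).trace = s * s * s := by
    simp only [trace, diag_apply, hsum, Matrix.mul_apply, Matrix.smul_apply, one_apply_eq,
      smul_eq_mul, mul_one]
  rw [t]
  refine cubic (abs_nonneg _) (abs_nonneg _) ?_
  rw [abs_mul_abs_self, abs_mul_abs_self, hss]

end TreeAux

open TreeAux in
theorem tree (N : ℕ) (F₀ F₁ F₂ : ℕ → ℕ → ℝ) :
    ∑ k ∈ range N, ∑ i ∈ range (2 ^ (N - (k + 1))), ∑ j ∈ range (2 ^ (N - (k + 1))),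
      |Ld k F₀ F₁ F₂ i j (i ^^^ j)| ≤
      48 * ∑ i ∈ range (2 ^ N), ∑ j ∈ range (2 ^ N),
        (|F₀ i j| ^ 3 + |F₁ i j| ^ 3 + |F₂ i j| ^ 3) := by
  obtain ⟨e, he⟩ : ∃ e : ℕ → ℕ → ℕ → ℝ, e = fun k i j =>
    en (node k F₀ i j) (node k F₁ j (i ^^^ j)) (node k F₂ (i ^^^ j) i) / 2 ^ k := ⟨_, rfl⟩
  have hen : ∀ k i j, 0 ≤ e k i j := by
    intro k i j
    rw [he]
    have h₁ := phi_nonneg ((node k F₀ i j)ᵀ * node k F₀ i j +
      node k F₁ j (i ^^^ j) * (node k F₁ j (i ^^^ j))ᵀ)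
    have h₂ := phi_nonneg ((node k F₁ j (i ^^^ j))ᵀ * node k F₁ j (i ^^^ j) +
      node k F₂ (i ^^^ j) i * (node k F₂ (i ^^^ j) i)ᵀ)
    have h₃ := phi_nonneg ((node k F₂ (i ^^^ j) i)ᵀ * node k F₂ (i ^^^ j) i +
      node k F₀ i j * (node k F₀ i j)ᵀ)
    simp only [en, ve]
    positivity
  have hstep : ∀ k i j, e (k + 1) i j + 1 / 16 * |Ld k F₀ F₁ F₂ i j (i ^^^ j)| ≤
      ∑ a : Fin 2, ∑ b : Fin 2, e k (2 * i + (a : ℕ)) (2 * j + (b : ℕ)) := by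
    intro k i j
    have h := local_ineq
      (fun a b => node k F₀ (2 * i + (a : ℕ)) (2 * j + (b : ℕ)))
      (fun b c => node k F₁ (2 * j + (b : ℕ)) (2 * (i ^^^ j) + (c : ℕ)))
      (fun c a => node k F₂ (2 * (i ^^^ j) + (c : ℕ)) (2 * i + (a : ℕ)))
    have h' : e (k + 1) i j = en
      (big fun a b => node k F₀ (2 * i + (a : ℕ)) (2 * j + (b : ℕ)))
      (big fun b c => node k F₁ (2 * j + (b : ℕ)) (2 * (i ^^^ j) + (c : ℕ)))
      (big fun c a => node k F₂ (2 * (i ^^^ j) + (c : ℕ)) (2 * i + (a : ℕ))) / 2 ^ (k + 1) := by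
      rw [he]
      simp only [node_big]
      rfl
    rw [h', Ld_gain, abs_div, abs_of_pos (by positivity : (0 : ℝ) < 2 ^ (k + 1))]
    have h'' : ∑ a : Fin 2, ∑ b : Fin 2, e k (2 * i + (a : ℕ)) (2 * j + (b : ℕ)) =
        (2 * ∑ a : Fin 2, ∑ b : Fin 2, en (node k F₀ (2 * i + (a : ℕ)) (2 * j + (b : ℕ)))
          (node k F₁ (2 * j + (b : ℕ)) (2 * (i ^^^ j) + ((a + b : Fin 2) : ℕ)))
          (node k F₂ (2 * (i ^^^ j) + ((a + b : Fin 2) : ℕ)) (2 * i + (a : ℕ)))) /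
          2 ^ (k + 1) := by
      rw [he, pow_succ]
      simp only [xor_two, ← sum_div]
      field_simp
    rw [h'', ← mul_div_assoc, ← add_div]
    exact div_le_div_of_nonneg_right h (by positivity)
  have hsum : ∀ k, k < N → (∑ i ∈ range (2 ^ (N - (k + 1))), ∑ j ∈ range (2 ^ (N - (k + 1))),
      e (k + 1) i j) + 1 / 16 * (∑ i ∈ range (2 ^ (N - (k + 1))),
        ∑ j ∈ range (2 ^ (N - (k + 1))), |Ld k F₀ F₁ F₂ i j (i ^^^ j)|) ≤
      ∑ i ∈ range (2 ^ (N - k)), ∑ j ∈ range (2 ^ (N - k)), e k i j := by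
    intro k hk
    have hN : 2 ^ (N - k) = 2 * 2 ^ (N - (k + 1)) := by
      rw [← pow_succ']
      congr 1
      omega
    rw [hN, ← sum_double₂ _ (fun i j => e k i j), mul_sum, ← sum_add_distrib]
    refine sum_le_sum fun i _ => ?_
    rw [mul_sum, ← sum_add_distrib]
    exact sum_le_sum fun j _ => hstep k i j
  have htel : ∀ K, K ≤ N → (∑ i ∈ range (2 ^ (N - K)), ∑ j ∈ range (2 ^ (N - K)), e K i j) +
      1 / 16 * (∑ k ∈ range K, ∑ i ∈ range (2 ^ (N - (k + 1))),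
        ∑ j ∈ range (2 ^ (N - (k + 1))), |Ld k F₀ F₁ F₂ i j (i ^^^ j)|) ≤
      ∑ i ∈ range (2 ^ N), ∑ j ∈ range (2 ^ N), e 0 i j := by
    intro K
    induction K with
    | zero => intro _; simp
    | succ K ih =>
      intro hK
      have h₁ := ih (by omega)
      have h₂ := hsum K (by omega)
      rw [sum_range_succ, mul_add]
      linarith
  have h₀ := htel N le_rfl
  have h₁ : 0 ≤ ∑ i ∈ range (2 ^ (N - N)), ∑ j ∈ range (2 ^ (N - N)), e N i j :=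
    sum_nonneg fun i _ => sum_nonneg fun j _ => hen N i j
  have hleaf : ∀ i j, e 0 i j ≤
      3 * (|F₀ i j| ^ 3 + |F₁ j (i ^^^ j)| ^ 3 + |F₂ (i ^^^ j) i| ^ 3) := by
    intro i j
    rw [he]
    have n₀ : ∀ (F : ℕ → ℕ → ℝ) (i j : ℕ) (x : Ix 0), node 0 F i j x x = F i j := by
      intro F i j x
      show F (2 ^ 0 * i + 0) (2 ^ 0 * j + 0) = F i j
      simp
    obtain ⟨x⟩ : Nonempty (Ix 0) := ⟨()⟩
    have v₁ := ve_leaf (node 0 F₀ i j) (node 0 F₁ j (i ^^^ j)) x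
    have v₂ := ve_leaf (node 0 F₁ j (i ^^^ j)) (node 0 F₂ (i ^^^ j) i) x
    have v₃ := ve_leaf (node 0 F₂ (i ^^^ j) i) (node 0 F₀ i j) x
    rw [n₀, n₀] at v₁ v₂ v₃
    simp only [en, pow_zero, div_one]
    linarith
  have h₂ : ∑ i ∈ range (2 ^ N), ∑ j ∈ range (2 ^ N), e 0 i j ≤
      ∑ i ∈ range (2 ^ N), ∑ j ∈ range (2 ^ N),
        3 * (|F₀ i j| ^ 3 + |F₁ j (i ^^^ j)| ^ 3 + |F₂ (i ^^^ j) i| ^ 3) :=
    sum_le_sum fun i _ => sum_le_sum fun j _ => hleaf i j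
  have h₃ : ∑ i ∈ range (2 ^ N), ∑ j ∈ range (2 ^ N),
        3 * (|F₀ i j| ^ 3 + |F₁ j (i ^^^ j)| ^ 3 + |F₂ (i ^^^ j) i| ^ 3) =
      3 * ∑ i ∈ range (2 ^ N), ∑ j ∈ range (2 ^ N),
        (|F₀ i j| ^ 3 + |F₁ i j| ^ 3 + |F₂ i j| ^ 3) := by
    simp only [← mul_sum, sum_add_distrib]
    have a₁ : ∑ i ∈ range (2 ^ N), ∑ j ∈ range (2 ^ N), |F₁ j (i ^^^ j)| ^ 3 =
        ∑ i ∈ range (2 ^ N), ∑ j ∈ range (2 ^ N), |F₁ i j| ^ 3 := by
      rw [sum_comm]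
      exact sum_congr rfl fun j hj => sum_xor N (fun l => |F₁ j l| ^ 3) (mem_range.mp hj)
    have a₂ : ∑ i ∈ range (2 ^ N), ∑ j ∈ range (2 ^ N), |F₂ (i ^^^ j) i| ^ 3 =
        ∑ i ∈ range (2 ^ N), ∑ j ∈ range (2 ^ N), |F₂ i j| ^ 3 := by
      rw [sum_comm (f := fun i j => |F₂ i j| ^ 3)]
      exact sum_congr rfl fun i hi => sum_xor' N (fun l => |F₂ l i| ^ 3) (mem_range.mp hi)
    rw [a₁, a₂]
  rw [h₃] at h₂
  linarith

end P075
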